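import Vale.Agent.P197.Sx.Basic

/-! Adjoint trick: kappa rho and rho kappa are adjoint for the standard form on pairs of labelings.
See notes/P197_saxl.md section 4. -/

namespace Vale.Agent.P197

open Equiv

variable {X : Type*} [Fintype X] [DecidableEq X]

/-- [J1] a finite combination of values of f is a combination of delta functionals
(Finset.sum_fiberwise_of_maps_to over the image of lam, or contrapositive + Finset.sum_comm). -/
theorem exists_delta {T Λ : Type*} [DecidableEq Λ] (S : Finset T) (c : T → ℂ) (lam : T → Λ)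
    (f : Λ → ℂ) (h : ∑ t ∈ S, c t * f (lam t) ≠ 0) :
    ∃ l, ∑ t ∈ S, c t * (if lam t = l then 1 else 0) ≠ 0 := by
  by_contra hcon
  push Not at hcon
  apply h
  have h1 : ∀ t ∈ S, c t * f (lam t)
      = ∑ l ∈ S.image lam, (c t * (if lam t = l then 1 else 0)) * f l := by
    intro t ht
    rw [Finset.sum_eq_single (lam t)]
    · simp
    · intro b _ hb
      simp [Ne.symm hb]
    · intro hnot
      exact absurd (Finset.mem_image_of_mem lam ht) hnot
  rw [Finset.sum_congr rfl h1, Finset.sum_comm]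
  apply Finset.sum_eq_zero
  intro l _
  rw [← Finset.sum_mul, hcon l, zero_mul]

theorem sum_image_ite {ι Λ M : Type*} [DecidableEq Λ] [AddCommMonoid M] (I : Finset ι) (L : ι → Λ)
    (F : Λ → ι → M) :
    ∑ l ∈ I.image L, ∑ i ∈ I, (if L i = l then F l i else 0) = ∑ i ∈ I, F (L i) i := by
  rw [Finset.sum_comm]
  refine Finset.sum_congr rfl (fun i hi => ?_)
  rw [Finset.sum_ite_eq, if_pos (Finset.mem_image_of_mem L hi)]

theorem gram_ne {ι Λ : Type*} [DecidableEq Λ] (I : Finset ι) (w : ι → ℤ) (L : ι → Λ) (f : Λ → ℂ)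
    (h : ∑ i ∈ I, (w i : ℂ) * f (L i) ≠ 0) :
    ∑ i ∈ I, ∑ j ∈ I, (if L j = L i then w i * w j else 0) ≠ 0 := by
  set Y : Λ → ℤ := fun l => ∑ i ∈ I, if L i = l then w i else 0 with hY
  have h1 : ∑ i ∈ I, ∑ j ∈ I, (if L j = L i then w i * w j else 0) =
      ∑ l ∈ I.image L, Y l * Y l := by
    rw [← sum_image_ite I L (fun l i => ∑ j ∈ I, (if L j = l then w i * w j else 0))]
    refine Finset.sum_congr rfl (fun l _ => ?_)
    have e1 : Y l * Y l = ∑ i ∈ I, (if L i = l then w i else 0) * Y l := by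
      conv_lhs => rw [hY]
      simp only
      rw [Finset.sum_mul]
    rw [e1]
    refine Finset.sum_congr rfl (fun i _ => ?_)
    split_ifs with hi
    · simp only [hY]
      rw [Finset.mul_sum]
      refine Finset.sum_congr rfl (fun j _ => ?_)
      split_ifs <;> simp
    · simp
  intro h0
  rw [h1] at h0
  have h3 : ∀ l ∈ I.image L, Y l = 0 := by
    intro l hl
    have := (Finset.sum_eq_zero_iff_of_nonneg (fun l _ => mul_self_nonneg (Y l))).mp h0 l hl
    exact mul_self_eq_zero.mp this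
  apply h
  rw [← sum_image_ite I L (fun l i => (w i : ℂ) * f l)]
  refine Finset.sum_eq_zero (fun l hl => ?_)
  have e2 : ∑ i ∈ I, (if L i = l then (w i : ℂ) * f l else 0) = (Y l : ℂ) * f l := by
    simp only [hY]
    push_cast
    rw [Finset.sum_mul]
    refine Finset.sum_congr rfl (fun i _ => ?_)
    split_ifs <;> simp
  rw [e2, h3 l hl]
  simp

omit [Fintype X] [DecidableEq X] in
theorem act_eq_inv_mul_iff (g k q : Perm X) (a : X → ℕ) :
    act q a = act (g⁻¹ * k) a ↔ act (g * q) a = act k a := by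
  constructor
  · intro h
    rw [act_mul, h, ← act_mul, mul_inv_cancel_left]
  · intro h
    apply act_injective g
    rw [← act_mul, h, ← act_mul, mul_inv_cancel_left]

/-- [J2] General adjoint lemma.  Index set I = fixG cA x fixG cB, s (q,p) = sign q * sign p (an integer),
L (q,p) g = (act (g*q) a, act (g*p) b).  psiP f g = sum over i of s i * f (L i g).
Put y l = sum over t in S, i in I of c t * s i * [L i (gam t) = l]  (an integer).  By `exists_delta` y l is nonzero for some l,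
so with Lam = the finite image of all L i (gam t), 0 < sum over l in Lam of (y l)^2
 = sum over t' in S of c t' * (sum over t in S of c t * K (gam t) (gam t')),
 K g h = sum over i, i' of s i * s i' * [L i g = L i' h] = K' (g⁻¹ * h),  K' k = sum s i * s i' * [L i 1 = L i' k]
(act is an action and act g is injective).  With f' u u' = sum over i of s i * [L i 1 = (u, u')] one has psiP f' k = K' k.
So some t' gives a nonzero inner sum: h0 = gam t'. -/
theorem adj_lemma {T : Type*} (cA a cB b : X → ℕ) (S : Finset T) (c : T → ℤ) (gam : T → Perm X)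
    (f : (X → ℕ) → (X → ℕ) → ℂ)
    (h : ∑ t ∈ S, (c t : ℂ) * psiP cA a cB b f (gam t) ≠ 0) :
    ∃ (h0 : Perm X) (f' : (X → ℕ) → (X → ℕ) → ℂ),
      ∑ t ∈ S, (c t : ℂ) * psiP cA a cB b f' ((gam t)⁻¹ * h0) ≠ 0 := by
  classical
  by_contra hcon
  push Not at hcon
  have key := gram_ne (S ×ˢ (fixG cA ×ˢ fixG cB))
    (fun i => c i.1 * ((Perm.sign i.2.1 : ℤ) * (Perm.sign i.2.2 : ℤ)))
    (fun i => (act (gam i.1 * i.2.1) a, act (gam i.1 * i.2.2) b)) (fun l => f l.1 l.2) ?_
  · apply key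
    have hc : ∀ t' ∈ S, ∑ t ∈ S, (c t : ℂ) * psiP cA a cB b
        (fun u u' => ∑ q ∈ fixG cA, ∑ p ∈ fixG cB,
          sg q * sg p * (if act q a = u ∧ act p b = u' then 1 else 0)) ((gam t)⁻¹ * gam t') = 0 :=
      fun t' _ => hcon (gam t') _
    have hcast : ((∑ i ∈ S ×ˢ (fixG cA ×ˢ fixG cB), ∑ j ∈ S ×ˢ (fixG cA ×ˢ fixG cB),
        (if (act (gam j.1 * j.2.1) a, act (gam j.1 * j.2.2) b) =
            (act (gam i.1 * i.2.1) a, act (gam i.1 * i.2.2) b) then
          (c i.1 * ((Perm.sign i.2.1 : ℤ) * (Perm.sign i.2.2 : ℤ))) *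
            (c j.1 * ((Perm.sign j.2.1 : ℤ) * (Perm.sign j.2.2 : ℤ))) else 0) : ℤ) : ℂ) = 0 := by
      push_cast
      simp only [Finset.sum_product]
      refine Finset.sum_eq_zero (fun t' ht' => ?_)
      have h2 := hc t' ht'
      have h3 : ∑ q' ∈ fixG cA, ∑ p' ∈ fixG cB, ∑ t ∈ S, ∑ q ∈ fixG cA, ∑ p ∈ fixG cB,
          (if (act (gam t * q) a, act (gam t * p) b) = (act (gam t' * q') a, act (gam t' * p') b)
            then ((c t' : ℂ) * (((Perm.sign q' : ℤ) : ℂ) * ((Perm.sign p' : ℤ) : ℂ))) *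
              ((c t : ℂ) * (((Perm.sign q : ℤ) : ℂ) * ((Perm.sign p : ℤ) : ℂ))) else 0) =
          (c t' : ℂ) * ∑ t ∈ S, (c t : ℂ) * psiP cA a cB b
        (fun u u' => ∑ q ∈ fixG cA, ∑ p ∈ fixG cB,
          sg q * sg p * (if act q a = u ∧ act p b = u' then 1 else 0)) ((gam t)⁻¹ * gam t') := by
        unfold psiP
        simp only [Finset.mul_sum]
        rw [Finset.sum_congr rfl (fun q' _ => Finset.sum_comm), Finset.sum_comm]
        refine Finset.sum_congr rfl (fun t _ => Finset.sum_congr rfl (fun q' _ =>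
          Finset.sum_congr rfl (fun p' _ => Finset.sum_congr rfl (fun q _ =>
          Finset.sum_congr rfl (fun p _ => ?_)))))
        rw [mul_assoc (gam t)⁻¹ (gam t') q', mul_assoc (gam t)⁻¹ (gam t') p']
        have hiff : ((act (gam t * q) a, act (gam t * p) b) =
            (act (gam t' * q') a, act (gam t' * p') b)) ↔
            (act q a = act ((gam t)⁻¹ * (gam t' * q')) a ∧
              act p b = act ((gam t)⁻¹ * (gam t' * p')) b) := by
          rw [Prod.mk.injEq, act_eq_inv_mul_iff, act_eq_inv_mul_iff]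
        by_cases hcd : (act (gam t * q) a, act (gam t * p) b) =
            (act (gam t' * q') a, act (gam t' * p') b)
        · rw [if_pos hcd, if_pos (hiff.mp hcd)]
          unfold sg
          ring
        · rw [if_neg hcd, if_neg (fun h => hcd (hiff.mpr h))]
          ring
      rw [h3, h2, mul_zero]
    exact_mod_cast hcast
  · intro h0
    apply h
    rw [← h0]
    simp only [Finset.sum_product]
    unfold psiP
    simp only [Finset.mul_sum]
    refine Finset.sum_congr rfl (fun t _ => Finset.sum_congr rfl (fun q _ =>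
          Finset.sum_congr rfl (fun p _ => ?_)))
    unfold sg
    push_cast
    ring

theorem psiP_left (cA a cB b : X → ℕ) (f : (X → ℕ) → (X → ℕ) → ℂ) (h g : Perm X) :
    psiP cA a cB b f (h * g) = psiP cA a cB b (fun u u' => f (act h u) (act h u')) g := by
  unfold psiP
  refine Finset.sum_congr rfl (fun q _ => Finset.sum_congr rfl (fun p _ => ?_))
  rw [mul_assoc h g q, mul_assoc h g p, act_mul h (g * q), act_mul h (g * p)]

/-- [J3] `adj_lemma` with S = fixG r3 xˢ fixG c3, c (r,q) = sign q, gam (r,q) = r * q;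
(r q)⁻¹ = q⁻¹ r⁻¹; reindex by inverses (`inv_mem_fixG`, `sg_inv`). -/
theorem QQ_to_PP (r3 c3 cA a cB b : X → ℕ) (f : (X → ℕ) → (X → ℕ) → ℂ)
    (h : QQ r3 c3 cA a cB b f ≠ 0) :
    ∃ (h0 : Perm X) (f' : (X → ℕ) → (X → ℕ) → ℂ), PP r3 c3 cA a cB b f' h0 ≠ 0 := by
  have h1 : ∑ t ∈ fixG r3 ×ˢ fixG c3, (((Perm.sign t.2 : ℤ)) : ℂ) *
      psiP cA a cB b f (t.1 * t.2) ≠ 0 := by
    rw [Finset.sum_product]
    exact h
  obtain ⟨h0, f', h2⟩ := adj_lemma cA a cB b (fixG r3 ×ˢ fixG c3)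
    (fun t => (Perm.sign t.2 : ℤ)) (fun t => t.1 * t.2) f h1
  refine ⟨h0, f', ?_⟩
  intro h3
  apply h2
  rw [← h3, Finset.sum_product, Finset.sum_comm]
  unfold PP
  refine Finset.sum_nbij' (fun q => q⁻¹) (fun q => q⁻¹) (fun q hq => inv_mem_fixG hq)
    (fun q hq => inv_mem_fixG hq) (by simp) (by simp) ?_
  intro q _
  refine Finset.sum_nbij' (fun q => q⁻¹) (fun q => q⁻¹) (fun q hq => inv_mem_fixG hq)
    (fun q hq => inv_mem_fixG hq) (by simp) (by simp) ?_
  intro r _
  rw [sg_inv, mul_inv_rev]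
  rfl

theorem conj_mem_fixG {c : X → ℕ} {r : Perm X} (h1 : Perm X) (hr : r ∈ fixG c) :
    h1⁻¹ * r⁻¹ * h1 ∈ fixG (fun x => c (h1 x)) := by
  have hr' := inv_mem_fixG hr
  rw [mem_fixG] at hr' ⊢
  intro x
  simp only [Perm.mul_apply, perm_apply_inv]
  exact hr' (h1 x)

theorem conj_mem_fixG' {c : X → ℕ} {r : Perm X} (h1 : Perm X)
    (hr : r ∈ fixG (fun x => c (h1 x))) : h1 * r⁻¹ * h1⁻¹ ∈ fixG c := by
  have hr' := inv_mem_fixG hr
  rw [mem_fixG] at hr' ⊢
  intro x
  have := hr' (h1⁻¹ x)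
  simp only [perm_apply_inv] at this
  simpa only [Perm.mul_apply] using this

/-- [J4] `adj_lemma` with S = fixG c3 xˢ fixG r3, gam (q,r) = q * r * h0 gives h1, f1 with
sum sg q * psiP f1 (h0⁻¹ * r⁻¹ * q⁻¹ * h1) nonzero.  Reindex by inverses; `psiP_left` absorbs h0⁻¹;
r * q * h1 = h1 * (h1⁻¹ r h1) * (h1⁻¹ q h1), `psiP_left` absorbs h1; conjugation by h1 is a sign preserving bijection
fixG r3 -> fixG (r3 o h1), fixG c3 -> fixG (c3 o h1). -/
theorem PP_to_QQ (r3 c3 cA a cB b : X → ℕ) (f : (X → ℕ) → (X → ℕ) → ℂ) (h0 : Perm X)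
    (h : PP r3 c3 cA a cB b f h0 ≠ 0) :
    ∃ (h1 : Perm X) (f' : (X → ℕ) → (X → ℕ) → ℂ),
      QQ (fun x => r3 (h1 x)) (fun x => c3 (h1 x)) cA a cB b f' ≠ 0 := by
  have h1 : ∑ t ∈ fixG c3 ×ˢ fixG r3, (((Perm.sign t.1 : ℤ)) : ℂ) *
      psiP cA a cB b f (t.1 * t.2 * h0) ≠ 0 := by
    rw [Finset.sum_product]
    exact h
  obtain ⟨k, f1, h2⟩ := adj_lemma cA a cB b (fixG c3 ×ˢ fixG r3)
    (fun t => (Perm.sign t.1 : ℤ)) (fun t => t.1 * t.2 * h0) f h1
  refine ⟨k, fun u u' => f1 (act (h0⁻¹ * k) u) (act (h0⁻¹ * k) u'), ?_⟩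
  intro h3
  apply h2
  rw [← h3, Finset.sum_product, Finset.sum_comm]
  unfold QQ
  refine Finset.sum_nbij' (fun r => k⁻¹ * r⁻¹ * k) (fun r => k * r⁻¹ * k⁻¹)
    (fun r hr => conj_mem_fixG k hr) (fun r hr => conj_mem_fixG' k hr)
    (by intro r _; group) (by intro r _; group) ?_
  intro r _
  refine Finset.sum_nbij' (fun r => k⁻¹ * r⁻¹ * k) (fun r => k * r⁻¹ * k⁻¹)
    (fun r hr => conj_mem_fixG k hr) (fun r hr => conj_mem_fixG' k hr)
    (by intro r _; group) (by intro r _; group) ?_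
  intro q _
  rw [← psiP_left]
  have e1 : sg (k⁻¹ * q⁻¹ * k) = sg q := by
    rw [sg_mul, sg_mul, sg_inv, sg_inv, mul_comm (sg k), mul_assoc, sg_mul_self, mul_one]
  have e2 : (q * r * h0)⁻¹ * k = h0⁻¹ * k * (k⁻¹ * r⁻¹ * k * (k⁻¹ * q⁻¹ * k)) := by group
  rw [e1, e2]
  rfl

theorem PP_as_sum (r3 c3 cA a cB b : X → ℕ) (F : (X → ℕ) → (X → ℕ) → ℂ) (h0 : Perm X) :
    PP r3 c3 cA a cB b F h0 =
      ∑ t ∈ fixG c3 ×ˢ fixG r3 ×ˢ fixG cA ×ˢ fixG cB,
        (sg t.1 * (sg t.2.2.1 * sg t.2.2.2)) *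
          (fun l : (X → ℕ) × (X → ℕ) => F l.1 l.2)
            (act (t.1 * t.2.1 * h0 * t.2.2.1) a, act (t.1 * t.2.1 * h0 * t.2.2.2) b) := by
  unfold PP psiP
  simp only [Finset.sum_product, Finset.mul_sum]
  refine Finset.sum_congr rfl fun q _ => Finset.sum_congr rfl fun r _ =>
    Finset.sum_congr rfl fun q' _ => Finset.sum_congr rfl fun p' _ => ?_
  ring

/-- [J5] PP is a finite combination of values of f: `exists_delta` with T = the four-fold product, Lam = pairs of labelings. -/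
theorem PP_delta (r3 c3 cA a cB b : X → ℕ) (f : (X → ℕ) → (X → ℕ) → ℂ) (h0 : Perm X)
    (h : PP r3 c3 cA a cB b f h0 ≠ 0) :
    ∃ u1 u2 : X → ℕ, PP r3 c3 cA a cB b
      (fun u u' => (if u = u1 then 1 else 0) * (if u' = u2 then 1 else 0)) h0 ≠ 0 := by
  classical
  rw [PP_as_sum] at h
  obtain ⟨l, hl⟩ := exists_delta (fixG c3 ×ˢ fixG r3 ×ˢ fixG cA ×ˢ fixG cB)
    (fun t => sg t.1 * (sg t.2.2.1 * sg t.2.2.2))
    (fun t => (act (t.1 * t.2.1 * h0 * t.2.2.1) a, act (t.1 * t.2.1 * h0 * t.2.2.2) b))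
    (fun l : (X → ℕ) × (X → ℕ) => f l.1 l.2) h
  refine ⟨l.1, l.2, ?_⟩
  rw [PP_as_sum]
  intro h2
  apply hl
  refine Eq.trans (Finset.sum_congr rfl fun t _ => ?_) h2
  congr 1
  by_cases e1 : act (t.1 * t.2.1 * h0 * t.2.2.1) a = l.1 <;>
  by_cases e2 : act (t.1 * t.2.1 * h0 * t.2.2.2) b = l.2 <;>
  simp [Prod.ext_iff, e1, e2]

/-- [J6] regrouping g = q * r.  `polytabloid_apply`; act q (rowOf t3) = act g (rowOf t3) iff q⁻¹ * g in fixG (rowOf t3). -/
theorem sum_regroup {mu : YoungDiagram} (t3 : Tableau mu X) (Φ : Perm X → ℂ) :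
    ∑ g : Perm X, polytabloid t3 (act g (rowOf t3)) * Φ g =
      ∑ q ∈ fixG (colOf t3), ∑ r ∈ fixG (rowOf t3), sg q * Φ (q * r) := by
  have key : ∀ (u : X → ℕ) (q g : Perm X), act q u = act g u ↔ q⁻¹ * g ∈ fixG u := by
    intro u q g
    rw [mem_fixG]
    constructor
    · intro h x
      have := congrFun h (g x)
      simp only [act, perm_inv_apply] at this
      rw [Perm.mul_apply]
      exact this
    · intro h
      funext x
      have := h (g⁻¹ x)
      rw [Perm.mul_apply, perm_apply_inv] at this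
      simp only [act]
      exact this
  simp_rw [polytabloid_apply, Finset.sum_mul]
  rw [Finset.sum_comm, fixG_colOf]
  refine Finset.sum_congr rfl (fun q _ => ?_)
  have h1 : ∀ g : Perm X,
      (if act q (rowOf t3) = act g (rowOf t3) then ((Perm.sign q : ℤ) : ℂ) else 0) * Φ g =
        if q⁻¹ * g ∈ fixG (rowOf t3) then sg q * Φ g else 0 := by
    intro g
    by_cases h : act q (rowOf t3) = act g (rowOf t3)
    · rw [if_pos h, if_pos ((key _ q g).mp h)]
      rfl
    · rw [if_neg h, if_neg (fun h' => h ((key _ q g).mpr h')), zero_mul]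
  rw [Finset.sum_congr rfl (fun g _ => h1 g), ← Finset.sum_filter]
  refine Finset.sum_nbij' (fun g => q⁻¹ * g) (fun r => q * r) ?_ ?_ ?_ ?_ ?_
  · intro g hg
    exact (Finset.mem_filter.mp hg).2
  · intro r hr
    rw [Finset.mem_filter]
    refine ⟨Finset.mem_univ _, ?_⟩
    rw [inv_mul_cancel_left]
    exact hr
  · intro g _
    rw [mul_inv_cancel_left]
  · intro r _
    rw [inv_mul_cancel_left]
  · intro g _
    rw [mul_inv_cancel_left]

/-- [J7] psiP of a product of two linear functionals.  Unfold polytabloid, map_sum, map_smul, `labRep_single`, Finset.sum_mul_sum. -/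
theorem psiP_eq_poly {l1 l2 : YoungDiagram} (t1 : Tableau l1 X) (t2 : Tableau l2 X)
    (f1 f2 : ((X → ℕ) →₀ ℂ) →ₗ[ℂ] ℂ) (g : Perm X) :
    psiP (colOf t1) (rowOf t1) (colOf t2) (rowOf t2)
      (fun u u' => f1 (Finsupp.single u 1) * f2 (Finsupp.single u' 1)) g =
      f1 (labRep X g (polytabloid t1)) * f2 (labRep X g (polytabloid t2)) := by
  have key : ∀ {l : YoungDiagram} (t : Tableau l X) (f : ((X → ℕ) →₀ ℂ) →ₗ[ℂ] ℂ),
      f (labRep X g (polytabloid t)) =
        ∑ q ∈ fixG (colOf t), sg q * f (Finsupp.single (act (g * q) (rowOf t)) 1) := by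
    intro l t f
    unfold polytabloid
    rw [map_sum, map_sum, fixG_colOf]
    refine Finset.sum_congr rfl fun q _ => ?_
    rw [map_smul, map_smul, labRep_single, act_mul, smul_eq_mul]
    rfl
  rw [key t1 f1, key t2 f2, Finset.sum_mul_sum]
  unfold psiP
  refine Finset.sum_congr rfl fun q _ => Finset.sum_congr rfl fun p _ => ?_
  ring

end Vale.Agent.P197
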