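import Vale.Agent.P197.Sx.Link

/-! Antisymmetry of Pf under permutations of blocks of consecutive positions carrying distinct letters.
See notes/P197_saxl.md section 3 (a), (c). -/

namespace Vale.Agent.P197

open Equiv

variable {Y : Type*} [Fintype Y] [DecidableEq Y]

/-- [A1] orthogonality of distinct letters (finite check). -/
theorem letL_orth {i j : ℕ} (hi : i < 4) (hj : j < 4) (hij : i ≠ j) :
    letL i 0 0 * letL j 1 1 + letL i 1 1 * letL j 0 0 - letL i 0 1 * letL j 1 0
      - letL i 1 0 * letL j 0 1 = 0 := by
  interval_cases i <;> interval_cases j <;> first | exact absurd rfl hij | (simp only [letL, letZ]; norm_num)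

/-- [A2] exchanging the letters of two adjacent positions with distinct letters changes the sign.
`Pf_linkB` (idx y even) or `Pf_linkA` (idx y odd) with c = -1:
A(al,0) B(al',1) - A(al,1) B(al',0) + B(al,0) A(al',1) - B(al,1) A(al',0) vanishes for al = al' and
equals plus or minus the form of `letL_orth` for (al, al') = (0,1), (1,0). -/
theorem Pf_swap_adj {M : ℕ} {idx cA a cB b : Y → ℕ} (hc : IsChain M idx cA a cB b) (w : Y → ℕ)
    (y y' : Y) (hyy : idx y' = idx y + 1) (hw : w y % 4 ≠ w y' % 4) :
    Pf cA a cB b (fun x => letL (w (swap y y' x) % 4)) = - Pf cA a cB b (fun x => letL (w x % 4)) := by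
  have hne : y ≠ y' := by
    rintro rfl
    omega
  have horth := letL_orth (Nat.mod_lt (w y) (by norm_num : 0 < 4))
    (Nat.mod_lt (w y') (by norm_num : 0 < 4)) hw
  have hout : ∀ x, x ≠ y → x ≠ y' →
      (fun x => letL (w (swap y y' x) % 4)) x = (fun x => letL (w x % 4)) x := by
    intro x h1 h2
    simp only [swap_apply_of_ne_of_ne h1 h2]
  rw [neg_eq_neg_one_mul]
  rcases Nat.even_or_odd' (idx y) with ⟨k, hk | hk⟩
  · -- a block of cB
    have hblock : ∀ x, cB x = cB y ↔ (x = y ∨ x = y') := by
      intro x
      rw [hc.hB]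
      constructor
      · intro h
        have : idx x = idx y ∨ idx x = idx y' := by omega
        rcases this with h1 | h1
        · exact Or.inl (hc.inj h1)
        · exact Or.inr (hc.inj h1)
      · rintro (rfl | rfl)
        · rfl
        · omega
    have hby : b y = 0 := by rw [hc.hb]; omega
    have hby' : b y' = 1 := by rw [hc.hb]; omega
    refine Pf_linkB cA a cB b y y' hne hblock (fun x => by rw [hc.ha]; omega) _ _ hout (-1) ?_
    intro α α' hα hα'
    simp only [swap_apply_left, swap_apply_right, hby, hby']
    interval_cases α <;> interval_cases α'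
    · ring
    · linear_combination horth
    · linear_combination -horth
    · ring
  · -- a block of cA
    have hblock : ∀ x, cA x = cA y ↔ (x = y ∨ x = y') := by
      intro x
      rw [hc.hA]
      constructor
      · intro h
        have : idx x = idx y ∨ idx x = idx y' := by omega
        rcases this with h1 | h1
        · exact Or.inl (hc.inj h1)
        · exact Or.inr (hc.inj h1)
      · rintro (rfl | rfl)
        · rfl
        · omega
    have hay : a y = 1 := by rw [hc.ha]; omega
    have hay' : a y' = 0 := by rw [hc.ha]; omega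
    refine Pf_linkA cA a cB b y y' hne hblock (fun x => by rw [hc.hb]; omega) _ _ hout (-1) ?_
    intro β β' hβ hβ'
    simp only [swap_apply_left, swap_apply_right, hay, hay']
    interval_cases β <;> interval_cases β'
    · ring
    · linear_combination -horth
    · linear_combination horth
    · ring

/-- [A3] swap of two positions of the same c3-block at any distance.  Induction on d.  d = 0: `Pf_swap_adj`.
Step: y1 at position idx y + 1 (hc.surj; in the same block by hint);
swap y y' = swap y y1 * swap y1 y' * swap y y1; apply `Pf_swap_adj`, the induction hypothesis, `Pf_swap_adj` to the words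
w, w o swap y y1, ... (each satisfies hinj because the swaps preserve c3). -/
theorem Pf_swap_far {M : ℕ} {idx cA a cB b : Y → ℕ} (hc : IsChain M idx cA a cB b) (c3 : Y → ℕ)
    (hint : ∀ y y' y'', idx y ≤ idx y' → idx y' ≤ idx y'' → c3 y = c3 y'' → c3 y' = c3 y)
    (d : ℕ) : ∀ (w : Y → ℕ), (∀ y y', c3 y = c3 y' → w y % 4 = w y' % 4 → y = y') →
      ∀ (y y' : Y), idx y' = idx y + d + 1 → c3 y = c3 y' →
    Pf cA a cB b (fun x => letL (w (swap y y' x) % 4)) = - Pf cA a cB b (fun x => letL (w x % 4)) := by
  induction d with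
  | zero =>
    intro w hinj y y' hyy hcc
    refine Pf_swap_adj hc w y y' (by omega) ?_
    intro h
    have := hinj y y' hcc h
    rw [this] at hyy
    omega
  | succ d ih =>
    intro w hinj y y' hyy hcc
    have hlt := hc.lt y'
    obtain ⟨y1, hy1⟩ := hc.surj (idx y + 1) (by omega)
    have hc1 : c3 y1 = c3 y := hint y y1 y' (by omega) (by omega) hcc
    have hne1 : y ≠ y1 := by
      rintro rfl
      omega
    have hne2 : y ≠ y' := by
      rintro rfl
      omega
    have hne3 : y1 ≠ y' := by
      rintro rfl
      omega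
    have hσ : ∀ x, c3 (swap y y1 x) = c3 x := mem_fixG.1 (lk_swap_mem_fixG hc1.symm)
    have hτ : ∀ x, c3 (swap y1 y' x) = c3 x :=
      mem_fixG.1 (lk_swap_mem_fixG (hc1.trans hcc))
    have hinj1 : ∀ u v, c3 u = c3 v → w (swap y y1 u) % 4 = w (swap y y1 v) % 4 → u = v := by
      intro u v h1 h2
      exact (swap y y1).injective (hinj _ _ (by rw [hσ, hσ, h1]) h2)
    have hinj2 : ∀ u v, c3 u = c3 v →
        w (swap y y1 (swap y1 y' u)) % 4 = w (swap y y1 (swap y1 y' v)) % 4 → u = v := by
      intro u v h1 h2
      exact (swap y1 y').injective (hinj1 _ _ (by rw [hτ, hτ, h1]) h2)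
    have e1 := Pf_swap_adj hc w y y1 hy1 (by
      intro h
      exact hne1 (hinj y y1 hc1.symm h))
    have e2 := ih (fun x => w (swap y y1 x)) hinj1 y1 y' (by omega) (hc1.trans hcc)
    have e3 := Pf_swap_adj hc (fun x => w (swap y y1 (swap y1 y' x))) y y1 hy1 (by
      intro h
      exact hne1 (hinj2 y y1 hc1.symm h))
    have hconj : ∀ x, swap y y' x = swap y y1 (swap y1 y' (swap y y1 x)) := by
      intro x
      have h := Equiv.swap_apply_apply (swap y y1) y1 y'
      rw [swap_apply_right, swap_apply_of_ne_of_ne hne2.symm hne3.symm] at h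
      rw [h]
      simp [Perm.mul_apply]
    have e0 : (fun x => letL (w (swap y y' x) % 4)) =
        (fun x => letL (w (swap y y1 (swap y1 y' (swap y y1 x))) % 4)) := by
      funext x
      rw [hconj x]
    rw [e0]

    rw [e3, e2, e1, neg_neg]

theorem Pf_antisymm_aux {M : ℕ} {idx cA a cB b : Y → ℕ} (hc : IsChain M idx cA a cB b) (c3 : Y → ℕ)
    (hint : ∀ y y' y'', idx y ≤ idx y' → idx y' ≤ idx y'' → c3 y = c3 y'' → c3 y' = c3 y) :
    ∀ (n : ℕ) (w : Y → ℕ) (q : Perm Y), q.support.card = n →
      (∀ y y', c3 y = c3 y' → w y % 4 = w y' % 4 → y = y') → q ∈ fixG c3 →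
      Pf cA a cB b (fun y => letL (w (q y) % 4)) =
        sg q * Pf cA a cB b (fun y => letL (w y % 4)) := by
  intro n
  induction n using Nat.strong_induction_on with
  | _ n ih =>
    intro w q hn hinj hq
    by_cases h1 : q = 1
    · subst h1
      simp [sg_one]
    · obtain ⟨x, hx⟩ : ∃ x, q x ≠ x := by
        by_contra hcon
        exact h1 (Equiv.ext fun y => by_contra fun hy => hcon ⟨y, hy⟩)
      have hcx : c3 x = c3 (q x) := ((mem_fixG.1 hq) x).symm
      have hs : swap x (q x) ∈ fixG c3 := lk_swap_mem_fixG hcx
      have hq' : swap x (q x) * q ∈ fixG c3 := mul_mem_fixG hs hq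
      have hlt : (swap x (q x) * q).support.card < n := by
        rw [← hn]
        exact Perm.card_support_swap_mul hx
      have hinj' : ∀ y y', c3 y = c3 y' →
          (fun z => w (swap x (q x) z)) y % 4 = (fun z => w (swap x (q x) z)) y' % 4 → y = y' := by
        intro y y' h1 h2
        have h3 : c3 (swap x (q x) y) = c3 (swap x (q x) y') := by
          rw [(mem_fixG.1 hs) y, (mem_fixG.1 hs) y', h1]
        exact (swap x (q x)).injective (hinj _ _ h3 h2)
      have hih := ih _ hlt (fun z => w (swap x (q x) z)) (swap x (q x) * q) rfl hinj' hq'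
      have hsimp : ∀ y, swap x (q x) ((swap x (q x) * q) y) = q y := by
        intro y
        rw [Perm.mul_apply, swap_apply_self]
      simp only [hsimp] at hih
      have hsw : Pf cA a cB b (fun z => letL (w (swap x (q x) z) % 4)) =
          - Pf cA a cB b (fun z => letL (w z % 4)) := by
        have hidx : idx x ≠ idx (q x) := fun h => hx (hc.inj h).symm
        rcases Nat.lt_or_gt_of_ne hidx with hlt' | hlt'
        · exact Pf_swap_far hc c3 hint (idx (q x) - idx x - 1) w hinj x (q x) (by omega) hcx
        · rw [swap_comm]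
          exact Pf_swap_far hc c3 hint (idx x - idx (q x) - 1) w hinj (q x) x (by omega) hcx.symm
      have hsg : sg (swap x (q x) * q) = - sg q := by
        rw [sg_mul, lk_sg_swap (Ne.symm hx)]
        ring
      rw [hih, hsw, hsg]
      ring

/-- [A4] strong induction on q.support.card, for all w: if q x is not x put q' = swap x (q x) * q
(Equiv.Perm.card_support_swap_mul); q' is in fixG c3; w o q = (w o swap x (q x)) o q' and
`Pf_swap_far` (order the two positions by idx; swap_comm). -/
theorem Pf_antisymm {M : ℕ} {idx cA a cB b : Y → ℕ} (hc : IsChain M idx cA a cB b) (c3 w : Y → ℕ)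
    (hint : ∀ y y' y'', idx y ≤ idx y' → idx y' ≤ idx y'' → c3 y = c3 y'' → c3 y' = c3 y)
    (hinj : ∀ y y', c3 y = c3 y' → w y % 4 = w y' % 4 → y = y') (q : Perm Y) (hq : q ∈ fixG c3) :
    Pf cA a cB b (fun y => letL (w (q y) % 4)) = sg q * Pf cA a cB b (fun y => letL (w y % 4)) :=
  Pf_antisymm_aux hc c3 hint _ w q rfl hinj hq

end Vale.Agent.P197
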