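import Vale.Agent.P197.Sx.Basic

/-! Restriction of the staircase tableau to the inner staircase, gluing of t3, enumeration of cells. -/

namespace Vale.Agent.P197

open Equiv

variable {X : Type*} [Fintype X] [DecidableEq X]

/-- [U1] the elements with lev >= k form a staircase of size m (same row and column indices). -/
theorem restrict_stair (m k : ℕ) (e : Tableau (staircase (m + k)) X) :
    ∃ eZ : Tableau (staircase m) {x // ¬ (lev e x < k)},
      ∀ z, rowOf eZ z = rowOf e z.1 ∧ colOf eZ z = colOf e z.1 := by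
  have key : ∀ x : X, ¬ (lev e x < k) ↔ rowOf e x + colOf e x < m := by
    intro x
    have := stair_lev e x
    omega
  have hup : ∀ c : ℕ × ℕ, c ∈ (staircase m).cells → c ∈ (staircase (m + k)).cells := by
    intro c hc
    rw [mem_cells_stair] at hc ⊢
    omega
  let eZ : Tableau (staircase m) {x // ¬ (lev e x < k)} :=
    { toFun := fun c => ⟨e ⟨c.1, hup c.1 c.2⟩, by
        rw [key]
        have h := mem_cells_stair.mp c.2
        simpa [rowOf, colOf] using h⟩
      invFun := fun z => ⟨(e.symm z.1).1, by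
        rw [mem_cells_stair]
        exact (key z.1).mp z.2⟩
      left_inv := by
        intro c
        apply Subtype.ext
        simp
      right_inv := by
        intro z
        apply Subtype.ext
        simp }
  exact ⟨eZ, fun z => ⟨rfl, rfl⟩⟩

/-- [U2] glue a tableau of shape tau on the complement of P and an injective map of P into nu \ tau.
(the combined map X -> cells of nu is injective, and card X = nu.card, so it is bijective.) -/
theorem glue_tableau (nu tau : YoungDiagram) (hle : tau ≤ nu) (P : X → Prop) [DecidablePred P]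
    (tZ : Tableau tau {x // ¬ P x}) (cellY : {x // P x} → ℕ × ℕ)
    (hinj : Function.Injective cellY) (hmem : ∀ y, cellY y ∈ nu ∧ cellY y ∉ tau)
    (hcard : Fintype.card X = nu.card) :
    ∃ t3 : Tableau nu X,
      (∀ z : {x // ¬ P x}, rowOf t3 z.1 = rowOf tZ z ∧ colOf t3 z.1 = colOf tZ z) ∧
      (∀ y : {x // P x}, (rowOf t3 y.1, colOf t3 y.1) = cellY y) := by
  classical
  have hsub : ∀ c, c ∈ tau.cells → c ∈ nu.cells := fun c hc =>
    (YoungDiagram.cells_subset_iff.mpr hle) hc
  let F : X → {c : ℕ × ℕ // c ∈ nu.cells} := fun x =>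
    if h : P x then ⟨cellY ⟨x, h⟩, (hmem ⟨x, h⟩).1⟩
    else ⟨(tZ.symm ⟨x, h⟩).1, hsub _ (tZ.symm ⟨x, h⟩).2⟩
  have hFP : ∀ (x : X) (h : P x), (F x).1 = cellY ⟨x, h⟩ := by
    intro x h
    simp only [F, dif_pos h]
  have hFN : ∀ (x : X) (h : ¬ P x), (F x).1 = (tZ.symm ⟨x, h⟩).1 := by
    intro x h
    simp only [F, dif_neg h]
  have hFinj : Function.Injective F := by
    intro x y hxy
    have hv : (F x).1 = (F y).1 := congrArg Subtype.val hxy
    by_cases hx : P x
    · by_cases hy : P y
      · rw [hFP x hx, hFP y hy] at hv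
        have := hinj hv
        exact congrArg Subtype.val this
      · rw [hFP x hx, hFN y hy] at hv
        exact absurd (show cellY ⟨x, hx⟩ ∈ tau.cells from hv ▸ (tZ.symm ⟨y, hy⟩).2) (hmem ⟨x, hx⟩).2
    · by_cases hy : P y
      · rw [hFN x hx, hFP y hy] at hv
        exact absurd (show cellY ⟨y, hy⟩ ∈ tau.cells from hv ▸ (tZ.symm ⟨x, hx⟩).2) (hmem ⟨y, hy⟩).2
      · rw [hFN x hx, hFN y hy] at hv
        have h1 : tZ.symm ⟨x, hx⟩ = tZ.symm ⟨y, hy⟩ := Subtype.ext hv
        have := tZ.symm.injective h1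
        exact congrArg Subtype.val this
  have hc : Fintype.card X = Fintype.card {c : ℕ × ℕ // c ∈ nu.cells} := by
    rw [hcard, Fintype.card_coe]
  have hbij : Function.Bijective F := (Fintype.bijective_iff_injective_and_card F).mpr ⟨hFinj, hc⟩
  refine ⟨(Equiv.ofBijective F hbij).symm, ?_, ?_⟩
  · intro z
    have h1 : ((Equiv.ofBijective F hbij).symm.symm z.1).1 = (tZ.symm z).1 := by
      simp only [Equiv.symm_symm, Equiv.ofBijective_apply]
      exact hFN z.1 z.2
    exact ⟨congrArg Prod.fst h1, congrArg Prod.snd h1⟩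
  · intro y
    have h1 : ((Equiv.ofBijective F hbij).symm.symm y.1).1 = cellY y := by
      simp only [Equiv.symm_symm, Equiv.ofBijective_apply]
      exact hFP y.1 y.2
    exact h1

/-- [U3] enumerate a finite set of cells column by column (lexicographic in (column, row)). -/
theorem enum_cells (D : Finset (ℕ × ℕ)) :
    ∃ φ : ℕ → ℕ × ℕ, (∀ n, n < D.card → φ n ∈ D) ∧
      (∀ n n', n < n' → n' < D.card →
        (φ n).2 < (φ n').2 ∨ ((φ n).2 = (φ n').2 ∧ (φ n).1 < (φ n').1)) := by
  classical
  let E : Finset (ℕ ×ₗ ℕ) := D.map ⟨fun c => toLex (c.2, c.1), by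
    intro a b h
    have h' : (a.2, a.1) = (b.2, b.1) := toLex.injective h
    simp only [Prod.mk.injEq] at h'
    exact Prod.ext h'.2 h'.1⟩
  have hE : E.card = D.card := Finset.card_map _
  let o := E.orderEmbOfFin hE
  refine ⟨fun n => if h : n < D.card then ((ofLex (o ⟨n, h⟩)).2, (ofLex (o ⟨n, h⟩)).1) else (0, 0),
    ?_, ?_⟩
  · intro n hn
    simp only [hn, dif_pos]
    have hm : o ⟨n, hn⟩ ∈ E := Finset.orderEmbOfFin_mem E hE _
    obtain ⟨c, hc, hc'⟩ := Finset.mem_map.mp hm
    rw [← hc']
    exact hc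
  · intro n n' hnn hn'
    have hn : n < D.card := lt_trans hnn hn'
    simp only [hn, hn', dif_pos]
    have hlt : o ⟨n, hn⟩ < o ⟨n', hn'⟩ := o.strictMono (by exact hnn)
    rw [Prod.Lex.lt_iff] at hlt
    exact hlt

end Vale.Agent.P197
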