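import Vale.Agent.P197.Sx.Basic

/-! Factorisation of QQ over a subset P and its complement.  See notes/P197_saxl.md section 1. -/

namespace Vale.Agent.P197

open Equiv

variable {X : Type*} [Fintype X] [DecidableEq X] (P : X → Prop) [DecidablePred P]

open Classical in
/-- functional supported on the pairs of labelings whose set {label < k} is exactly P. -/
noncomputable def splitF (k : ℕ) (fY : ({x // P x} → ℕ) → ({x // P x} → ℕ) → ℂ)
    (fZ : ({x // ¬ P x} → ℕ) → ({x // ¬ P x} → ℕ) → ℂ) (u u' : X → ℕ) : ℂ :=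
  if (∀ x, (u x < k ↔ P x) ∧ (u' x < k ↔ P x)) then
    fY (fun y => u y.1) (fun y => u' y.1) * fZ (fun z => u z.1) (fun z => u' z.1) else 0

omit [Fintype X] [DecidableEq X] [DecidablePred P] in
private theorem pres_mul {g h : Perm X} (hg : ∀ x, P (g x) ↔ P x) (hh : ∀ x, P (h x) ↔ P x) :
    ∀ x, P ((g * h) x) ↔ P x := by
  intro x
  rw [Perm.mul_apply, hg, hh]

omit [Fintype X] [DecidableEq X] [DecidablePred P] in
private theorem pres_inv {g : Perm X} (hg : ∀ x, P (g x) ↔ P x) :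
    ∀ x, P (g⁻¹ x) ↔ P x := by
  intro x
  have := hg (g⁻¹ x)
  rw [perm_apply_inv] at this
  exact this.symm

/-- [S2] -/
theorem subtypeCongr_preserves (gY : Perm {x // P x}) (gZ : Perm {x // ¬ P x}) (x : X) :
    P (Perm.subtypeCongr gY gZ x) ↔ P x := by
  by_cases h : P x
  · rw [Perm.subtypeCongr.left_apply gY gZ h]
    exact ⟨fun _ => h, fun _ => (gY ⟨x, h⟩).2⟩
  · rw [Perm.subtypeCongr.right_apply gY gZ h]
    exact ⟨fun h' => absurd h' (gZ ⟨x, h⟩).2, fun h' => absurd h' h⟩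

/-- [S1] permutations in fixG c preserving P = pairs (gY, gZ) via Perm.subtypeCongr.
(inverse map: Perm.subtypePerm on P and on its negation). -/
theorem sum_fixG_split (c : X → ℕ) (F : Perm X → ℂ) :
    ∑ g ∈ (fixG c).filter (fun g => ∀ x, P (g x) ↔ P x), F g =
      ∑ gY ∈ fixG (fun y : {x // P x} => c y.1), ∑ gZ ∈ fixG (fun z : {x // ¬ P x} => c z.1),
        F (Perm.subtypeCongr gY gZ) := by
  rw [← Finset.sum_product']
  symm
  refine Finset.sum_bij (fun g _ => Perm.subtypeCongr g.1 g.2) ?_ ?_ ?_ ?_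
  · rintro ⟨gY, gZ⟩ hg
    rw [Finset.mem_product, mem_fixG, mem_fixG] at hg
    rw [Finset.mem_filter, mem_fixG]
    refine ⟨fun x => ?_, fun x => subtypeCongr_preserves P gY gZ x⟩
    by_cases h : P x
    · rw [Perm.subtypeCongr.left_apply gY gZ h]
      exact hg.1 ⟨x, h⟩
    · rw [Perm.subtypeCongr.right_apply gY gZ h]
      exact hg.2 ⟨x, h⟩
  · rintro ⟨gY, gZ⟩ _ ⟨gY', gZ'⟩ _ h
    simp only at h
    have h1 : gY = gY' := by
      ext y
      have := congrArg (fun g : Perm X => g y.1) h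
      simp only [Perm.subtypeCongr.left_apply_subtype] at this
      exact this
    have h2 : gZ = gZ' := by
      ext z
      have := congrArg (fun g : Perm X => g z.1) h
      simp only [Perm.subtypeCongr.right_apply_subtype] at this
      exact this
    rw [h1, h2]
  · intro g hg
    rw [Finset.mem_filter, mem_fixG] at hg
    have hn : ∀ x, ¬ P (g x) ↔ ¬ P x := fun x => not_congr (hg.2 x)
    refine ⟨(g.subtypePerm hg.2, g.subtypePerm hn), ?_, ?_⟩
    · rw [Finset.mem_product, mem_fixG, mem_fixG]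
      exact ⟨fun y => hg.1 y.1, fun z => hg.1 z.1⟩
    · ext x
      by_cases h : P x
      · rw [Perm.subtypeCongr.left_apply _ _ h]
        rfl
      · rw [Perm.subtypeCongr.right_apply _ _ h]
        rfl
  · intro g _
    rfl

theorem sg_subtypeCongr (gY : Perm {x // P x}) (gZ : Perm {x // ¬ P x}) :
    sg (Perm.subtypeCongr gY gZ) = sg gY * sg gZ := by
  simp [sg, Perm.sign_subtypeCongr]

omit [Fintype X] [DecidableEq X] in
private theorem subtypeCongr_inv (gY : Perm {x // P x}) (gZ : Perm {x // ¬ P x}) :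
    (Perm.subtypeCongr gY gZ)⁻¹ = Perm.subtypeCongr gY⁻¹ gZ⁻¹ :=
  Perm.subtypeCongr.symm gY gZ

/-- [S2] -/
theorem act_subtypeCongr_Y (gY : Perm {x // P x}) (gZ : Perm {x // ¬ P x}) (u : X → ℕ) :
    (fun y : {x // P x} => act (Perm.subtypeCongr gY gZ) u y.1) = act gY (fun y => u y.1) := by
  funext y
  simp only [act]
  rw [subtypeCongr_inv, Perm.subtypeCongr.left_apply_subtype]

/-- [S2] -/
theorem act_subtypeCongr_Z (gY : Perm {x // P x}) (gZ : Perm {x // ¬ P x}) (u : X → ℕ) :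
    (fun z : {x // ¬ P x} => act (Perm.subtypeCongr gY gZ) u z.1) = act gZ (fun z => u z.1) := by
  funext z
  simp only [act]
  rw [subtypeCongr_inv, Perm.subtypeCongr.right_apply_subtype]

/-- [S2] -/
theorem subtypeCongr_mul (gY hY : Perm {x // P x}) (gZ hZ : Perm {x // ¬ P x}) :
    Perm.subtypeCongr gY gZ * Perm.subtypeCongr hY hZ = Perm.subtypeCongr (gY * hY) (gZ * hZ) :=
  Perm.subtypeCongr.trans hY gY hZ gZ

/-- [S3] {act g a < k} = g P. -/
theorem splitF_ne (k : ℕ) (a b : X → ℕ) (ha : ∀ x, a x < k ↔ P x) (hb : ∀ x, b x < k ↔ P x)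
    (fY : ({x // P x} → ℕ) → ({x // P x} → ℕ) → ℂ)
    (fZ : ({x // ¬ P x} → ℕ) → ({x // ¬ P x} → ℕ) → ℂ) (g1 g2 : Perm X)
    (h : splitF P k fY fZ (act g1 a) (act g2 b) ≠ 0) :
    (∀ x, P (g1 x) ↔ P x) ∧ (∀ x, P (g2 x) ↔ P x) := by
  unfold splitF at h
  split_ifs at h with hc
  · constructor
    · intro x
      have := (hc (g1 x)).1
      simp only [act, perm_inv_apply] at this
      rw [← this, ha]
    · intro x
      have := (hc (g2 x)).2
      simp only [act, perm_inv_apply] at this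
      rw [← this, hb]
  · exact absurd rfl h

/-- [S3] uses `act_subtypeCongr_Y/Z` and `subtypeCongr_preserves` (for the inverse). -/
theorem splitF_subtypeCongr (k : ℕ) (a b : X → ℕ) (ha : ∀ x, a x < k ↔ P x)
    (hb : ∀ x, b x < k ↔ P x)
    (fY : ({x // P x} → ℕ) → ({x // P x} → ℕ) → ℂ)
    (fZ : ({x // ¬ P x} → ℕ) → ({x // ¬ P x} → ℕ) → ℂ)
    (gY gY' : Perm {x // P x}) (gZ gZ' : Perm {x // ¬ P x}) :
    splitF P k fY fZ (act (Perm.subtypeCongr gY gZ) a) (act (Perm.subtypeCongr gY' gZ') b) =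
      fY (act gY (fun y => a y.1)) (act gY' (fun y => b y.1)) *
        fZ (act gZ (fun z => a z.1)) (act gZ' (fun z => b z.1)) := by
  unfold splitF
  rw [if_pos, act_subtypeCongr_Y, act_subtypeCongr_Y, act_subtypeCongr_Z, act_subtypeCongr_Z]
  intro x
  constructor
  · simp only [act]
    rw [ha]
    exact pres_inv P (subtypeCongr_preserves P gY gZ) x
  · simp only [act]
    rw [hb]
    exact pres_inv P (subtypeCongr_preserves P gY' gZ') x

/-- [S4] if a summand (q, p) is nonzero then g q and g p preserve P (`splitF_ne`), so q⁻¹ p = (g q)⁻¹ (g p)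
does, so q does (hdelta), so g = (g q) q⁻¹ does. -/
theorem psiP_split_zero (k : ℕ) (cA a cB b : X → ℕ)
    (ha : ∀ x, a x < k ↔ P x) (hb : ∀ x, b x < k ↔ P x)
    (hdelta : ∀ q ∈ fixG cA, ∀ p ∈ fixG cB, (∀ x, P ((q⁻¹ * p) x) ↔ P x) →
      (∀ x, P (q x) ↔ P x) ∧ (∀ x, P (p x) ↔ P x))
    (fY : ({x // P x} → ℕ) → ({x // P x} → ℕ) → ℂ)
    (fZ : ({x // ¬ P x} → ℕ) → ({x // ¬ P x} → ℕ) → ℂ) (g : Perm X)
    (hg : ¬ ∀ x, P (g x) ↔ P x) : psiP cA a cB b (splitF P k fY fZ) g = 0 := by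
  unfold psiP
  refine Finset.sum_eq_zero (fun q hq => Finset.sum_eq_zero (fun p hp => ?_))
  by_contra hne
  have hf : splitF P k fY fZ (act (g * q) a) (act (g * p) b) ≠ 0 := right_ne_zero_of_mul hne
  obtain ⟨h1, h2⟩ := splitF_ne P k a b ha hb fY fZ _ _ hf
  have h3 : ∀ x, P ((q⁻¹ * p) x) ↔ P x := by
    have e : q⁻¹ * p = (g * q)⁻¹ * (g * p) := by group
    rw [e]
    exact pres_mul P (pres_inv P h1) h2
  have h4 := (hdelta q hq p hp h3).1
  apply hg
  have e : g = (g * q) * q⁻¹ := by group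
  rw [e]
  exact pres_mul P h1 (pres_inv P h4)

/-- common pattern of S5 and S6: a double sum over two groups whose summand vanishes unless both
permutations preserve P, and factors on pairs. -/
private theorem double_split (c1 c2 : X → ℕ) (F : Perm X → Perm X → ℂ)
    (hF : ∀ q ∈ fixG c1, ∀ p ∈ fixG c2, F q p ≠ 0 →
      (∀ x, P (q x) ↔ P x) ∧ (∀ x, P (p x) ↔ P x))
    (A : Perm {x // P x} → Perm {x // P x} → ℂ)
    (B : Perm {x // ¬ P x} → Perm {x // ¬ P x} → ℂ)
    (hAB : ∀ qY qZ pY pZ, F (Perm.subtypeCongr qY qZ) (Perm.subtypeCongr pY pZ) =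
      A qY pY * B qZ pZ) :
    ∑ q ∈ fixG c1, ∑ p ∈ fixG c2, F q p =
      (∑ qY ∈ fixG (fun y : {x // P x} => c1 y.1), ∑ pY ∈ fixG (fun y : {x // P x} => c2 y.1),
        A qY pY) *
      (∑ qZ ∈ fixG (fun z : {x // ¬ P x} => c1 z.1),
        ∑ pZ ∈ fixG (fun z : {x // ¬ P x} => c2 z.1), B qZ pZ) := by
  have e1 : ∑ q ∈ fixG c1, ∑ p ∈ fixG c2, F q p =
      ∑ q ∈ (fixG c1).filter (fun g => ∀ x, P (g x) ↔ P x),
        ∑ p ∈ (fixG c2).filter (fun g => ∀ x, P (g x) ↔ P x), F q p := by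
    rw [Finset.sum_filter_of_ne]
    · refine Finset.sum_congr rfl (fun q hq => ?_)
      rw [Finset.sum_filter_of_ne]
      intro p hp hne
      exact (hF q hq p hp hne).2
    · intro q hq hne
      obtain ⟨p, hp, hpne⟩ := Finset.exists_ne_zero_of_sum_ne_zero hne
      rw [Finset.mem_filter] at hp
      exact (hF q hq p hp.1 hpne).1
  rw [e1, sum_fixG_split P c1]
  simp_rw [sum_fixG_split P c2, hAB]
  rw [Finset.sum_mul]
  refine Finset.sum_congr rfl (fun qY _ => ?_)
  rw [Finset.sum_comm, Finset.sum_mul]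
  refine Finset.sum_congr rfl (fun pY _ => ?_)
  rw [Finset.mul_sum]
  refine Finset.sum_congr rfl (fun qZ _ => ?_)
  rw [Finset.mul_sum]

/-- [S5] g = subtypeCongr gY gZ preserves P; a summand (q, p) is nonzero only if q and p preserve P
(`splitF_ne`).  Restrict both sums (Finset.sum_filter), apply `sum_fixG_split` twice, `subtypeCongr_mul`,
`splitF_subtypeCongr`, `sg_subtypeCongr`, and factor the four-fold sum (Finset.sum_mul_sum, Finset.sum_comm). -/
theorem psiP_split (k : ℕ) (cA a cB b : X → ℕ)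
    (ha : ∀ x, a x < k ↔ P x) (hb : ∀ x, b x < k ↔ P x)
    (fY : ({x // P x} → ℕ) → ({x // P x} → ℕ) → ℂ)
    (fZ : ({x // ¬ P x} → ℕ) → ({x // ¬ P x} → ℕ) → ℂ)
    (gY : Perm {x // P x}) (gZ : Perm {x // ¬ P x}) :
    psiP cA a cB b (splitF P k fY fZ) (Perm.subtypeCongr gY gZ) =
      psiP (fun y : {x // P x} => cA y.1) (fun y => a y.1) (fun y => cB y.1) (fun y => b y.1) fY gY *
      psiP (fun z : {x // ¬ P x} => cA z.1) (fun z => a z.1) (fun z => cB z.1) (fun z => b z.1)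
        fZ gZ := by
  unfold psiP
  refine double_split P cA cB
    (fun q p => sg q * sg p * splitF P k fY fZ (act (Perm.subtypeCongr gY gZ * q) a)
      (act (Perm.subtypeCongr gY gZ * p) b)) ?_
    (fun q p => sg q * sg p * fY (act (gY * q) (fun y => a y.1)) (act (gY * p) (fun y => b y.1)))
    (fun q p => sg q * sg p * fZ (act (gZ * q) (fun z => a z.1)) (act (gZ * p) (fun z => b z.1)))
    ?_
  · intro q _ p _ hne
    have hf := right_ne_zero_of_mul hne
    obtain ⟨h1, h2⟩ := splitF_ne P k a b ha hb fY fZ _ _ hf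
    have hG := pres_inv P (subtypeCongr_preserves P gY gZ)
    constructor
    · have e : q = (Perm.subtypeCongr gY gZ)⁻¹ * (Perm.subtypeCongr gY gZ * q) := by group
      rw [e]
      exact pres_mul P hG h1
    · have e : p = (Perm.subtypeCongr gY gZ)⁻¹ * (Perm.subtypeCongr gY gZ * p) := by group
      rw [e]
      exact pres_mul P hG h2
  · intro qY qZ pY pZ
    rw [subtypeCongr_mul, subtypeCongr_mul, splitF_subtypeCongr P k a b ha hb, sg_subtypeCongr,
      sg_subtypeCongr]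
    ring

/-- [S6] Main factorisation.  By `psiP_split_zero` the summand (r, q) vanishes unless r q preserves P, and then by
hbot both r and q preserve P.  Restrict both sums, `sum_fixG_split` twice, `subtypeCongr_mul`, `psiP_split`,
`sg_subtypeCongr`, factor. -/
theorem QQ_split (k : ℕ) (r3 c3 cA a cB b : X → ℕ)
    (ha : ∀ x, a x < k ↔ P x) (hb : ∀ x, b x < k ↔ P x)
    (hdelta : ∀ q ∈ fixG cA, ∀ p ∈ fixG cB, (∀ x, P ((q⁻¹ * p) x) ↔ P x) →
      (∀ x, P (q x) ↔ P x) ∧ (∀ x, P (p x) ↔ P x))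
    (hbot : ∀ r ∈ fixG r3, ∀ q ∈ fixG c3, (∀ x, P ((r * q) x) ↔ P x) →
      (∀ x, P (q x) ↔ P x) ∧ (∀ x, P (r x) ↔ P x))
    (fY : ({x // P x} → ℕ) → ({x // P x} → ℕ) → ℂ)
    (fZ : ({x // ¬ P x} → ℕ) → ({x // ¬ P x} → ℕ) → ℂ) :
    QQ r3 c3 cA a cB b (splitF P k fY fZ) =
      QQ (fun y : {x // P x} => r3 y.1) (fun y => c3 y.1) (fun y => cA y.1) (fun y => a y.1)
        (fun y => cB y.1) (fun y => b y.1) fY *
      QQ (fun z : {x // ¬ P x} => r3 z.1) (fun z => c3 z.1) (fun z => cA z.1) (fun z => a z.1)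
        (fun z => cB z.1) (fun z => b z.1) fZ := by
  unfold QQ
  refine double_split P r3 c3
    (fun r q => sg q * psiP cA a cB b (splitF P k fY fZ) (r * q)) ?_
    (fun r q => sg q * psiP (fun y : {x // P x} => cA y.1) (fun y => a y.1) (fun y => cB y.1)
      (fun y => b y.1) fY (r * q))
    (fun r q => sg q * psiP (fun z : {x // ¬ P x} => cA z.1) (fun z => a z.1) (fun z => cB z.1)
      (fun z => b z.1) fZ (r * q)) ?_
  · intro r hr q hq hne
    have hf := right_ne_zero_of_mul hne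
    have h1 : ∀ x, P ((r * q) x) ↔ P x := by
      by_contra hcon
      exact hf (psiP_split_zero P k cA a cB b ha hb hdelta fY fZ _ hcon)
    exact (hbot r hr q hq h1).symm
  · intro rY rZ qY qZ
    rw [subtypeCongr_mul, psiP_split P k cA a cB b ha hb, sg_subtypeCongr]
    ring

end Vale.Agent.P197
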