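import Vale.Agent.P197.Sx.Thr
import Vale.Agent.P197.Sx.Split
import Vale.Agent.P197.Sx.Glue

/-! The induction step: StairGood m tau + BandGood m k tau nu => StairGood (m+k) nu. -/

namespace Vale.Agent.P197

open Equiv

variable {X : Type*} [Fintype X] [DecidableEq X]

/-- relabelling: composing all labels with phi. -/
theorem QQ_relabel (r3 c3 cA a cB b : X → ℕ) (φ : ℕ → ℕ) (f : (X → ℕ) → (X → ℕ) → ℂ) :
    QQ r3 c3 cA a cB b (fun u u' => f (fun x => φ (u x)) (fun x => φ (u' x))) =
      QQ r3 c3 cA (fun x => φ (a x)) cB (fun x => φ (b x)) f := by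
  rfl

/-- [P1] Given (X, e) of size m + k put P x := lev e x < k.  Take eZ from `restrict_stair`, (tZ, fin) from
hgood for eZ, (cellY, fY) from hband, t3 from `glue_tableau` (card X = card_stair).  Then
P x <-> cell of x in t3 is outside tau.  Apply `QQ_split` with `delta_stair`, `bot_tab`,
fZ u u' := fin (u - k) (u' - k) and `QQ_relabel` (lev eZ z = lev e z - k). -/
theorem step_lemma (m k : ℕ) (tau nu : YoungDiagram) (hle : tau ≤ nu)
    (hcard : nu.card = (m + k) * (m + k + 1) / 2)
    (hgood : StairGood m tau) (hband : BandGood m k tau nu) : StairGood (m + k) nu := by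
  intro X _ _ e
  obtain ⟨eZ, heZ⟩ := restrict_stair m k e
  obtain ⟨tZ, fin, hfin⟩ := hgood {x // ¬ (lev e x < k)} eZ
  obtain ⟨cellY, fY, hinj, hmem, hY⟩ := hband X e
  have hcardX : Fintype.card X = nu.card := by
    rw [hcard, ← card_stair (m + k), ← Fintype.card_congr e, Fintype.card_coe]
  obtain ⟨t3, ht3Z, ht3Y⟩ :=
    glue_tableau nu tau hle (fun x => lev e x < k) tZ cellY hinj hmem hcardX
  have hP : ∀ x, lev e x < k ↔ (rowOf t3 x, colOf t3 x) ∉ tau := by
    intro x
    constructor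
    · intro hx
      rw [ht3Y ⟨x, hx⟩]
      exact (hmem ⟨x, hx⟩).2
    · intro hx
      by_contra hx'
      apply hx
      rw [(ht3Z ⟨x, hx'⟩).1, (ht3Z ⟨x, hx'⟩).2]
      exact cell_mem tZ _
  have hdelta : ∀ q ∈ fixG (colOf e), ∀ p ∈ fixG (rowOf e),
      (∀ x, lev e ((q⁻¹ * p) x) < k ↔ lev e x < k) →
      (∀ x, lev e (q x) < k ↔ lev e x < k) ∧ (∀ x, lev e (p x) < k ↔ lev e x < k) :=
    fun q hq p hp h => delta_stair e k q p hq hp h
  have hbot : ∀ r ∈ fixG (rowOf t3), ∀ q ∈ fixG (colOf t3),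
      (∀ x, lev e ((r * q) x) < k ↔ lev e x < k) →
      (∀ x, lev e (q x) < k ↔ lev e x < k) ∧ (∀ x, lev e (r x) < k ↔ lev e x < k) := by
    intro r hr q hq h
    obtain ⟨h1, h2⟩ := bot_tab tau t3 r q hr hq (fun x => by rw [← hP, ← hP]; exact h x)
    exact ⟨fun x => by rw [hP, hP]; exact h1 x, fun x => by rw [hP, hP]; exact h2 x⟩
  refine ⟨t3, splitF (fun x => lev e x < k) k fY
    (fun u u' => fin (fun z => u z - k) (fun z => u' z - k)), ?_⟩
  rw [QQ_split (fun x => lev e x < k) k (rowOf t3) (colOf t3) (colOf e) (lev e) (rowOf e) (lev e)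
    (fun x => Iff.rfl) (fun x => Iff.rfl) hdelta hbot]
  apply mul_ne_zero
  · have e1 : (fun y : {x // lev e x < k} => rowOf t3 y.1) = fun y => (cellY y).1 :=
      funext (fun y => by rw [← ht3Y y])
    have e2 : (fun y : {x // lev e x < k} => colOf t3 y.1) = fun y => (cellY y).2 :=
      funext (fun y => by rw [← ht3Y y])
    rw [e1, e2]
    exact hY
  · have e1 : (fun z : {x // ¬ (lev e x < k)} => rowOf t3 z.1) = rowOf tZ :=
      funext (fun z => (ht3Z z).1)
    have e2 : (fun z : {x // ¬ (lev e x < k)} => colOf t3 z.1) = colOf tZ :=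
      funext (fun z => (ht3Z z).2)
    have e3 : (fun z : {x // ¬ (lev e x < k)} => colOf e z.1) = colOf eZ :=
      funext (fun z => (heZ z).2.symm)
    have e4 : (fun z : {x // ¬ (lev e x < k)} => rowOf e z.1) = rowOf eZ :=
      funext (fun z => (heZ z).1.symm)
    have e5 : (fun z : {x // ¬ (lev e x < k)} => lev e z.1 - k) = lev eZ := by
      funext z
      have h1 := (heZ z).1
      have h2 := (heZ z).2
      have h3 := stair_lev e z.1
      have h4 := stair_lev eZ z
      have h5 := z.2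
      show lev e z.1 - k = lev eZ z
      omega
    rw [e1, e2, e3, e4,
      QQ_relabel (rowOf tZ) (colOf tZ) (colOf eZ) (fun z => lev e z.1) (rowOf eZ)
        (fun z => lev e z.1) (fun n => n - k) fin, e5]
    exact hfin

end Vale.Agent.P197
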