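import Vale.Agent.P197.Sx.ChainMain
import Vale.Agent.P197.Sx.Step

/-! BandGood for k = 1 (horizontal strips) and k = 2 (skew shapes with columns of length at most 4). -/

namespace Vale.Agent.P197

open Equiv

variable {X : Type*} [Fintype X] [DecidableEq X]

/-- [D1] the outer two antidiagonals of the staircase of size m + 2 form a chain with M = m + 1,
idx y = 2 * row + lev  (row = idx / 2, col = m + 1 - (idx + 1) / 2, lev = idx % 2). -/
theorem band_isChain (m : ℕ) (e : Tableau (staircase (m + 2)) X) :
    IsChain (m + 1) (fun y : {x // lev e x < 2} => 2 * rowOf e y.1 + lev e y.1)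
      (fun y => colOf e y.1) (fun y => lev e y.1) (fun y => rowOf e y.1) (fun y => lev e y.1) := by
  refine ⟨?_, ?_, ?_, ?_, ?_, ?_, ?_⟩
  · intro y y' h
    have h' : 2 * rowOf e y.1 + lev e y.1 = 2 * rowOf e y'.1 + lev e y'.1 := h
    have h1 := stair_lev e y.1
    have h2 := stair_lev e y'.1
    have h3 := y.2
    have h4 := y'.2
    have hr : rowOf e y.1 = rowOf e y'.1 := by omega
    have hc : colOf e y.1 = colOf e y'.1 := by omega
    apply Subtype.ext
    apply e.symm.injective
    apply Subtype.ext
    exact Prod.ext hr hc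
  · intro y
    have h1 := stair_lev e y.1
    have h3 := y.2
    show 2 * rowOf e y.1 + lev e y.1 < 2 * (m + 1) + 1
    omega
  · intro n hn
    have hmem : (n / 2, m + 1 - n / 2 - n % 2) ∈ (staircase (m + 2)).cells := by
      rw [YoungDiagram.mem_cells, mem_staircase]
      show n / 2 + (m + 1 - n / 2 - n % 2) < m + 2
      omega
    have hr : rowOf e (e ⟨_, hmem⟩) = n / 2 := by simp [rowOf]
    have hc : colOf e (e ⟨_, hmem⟩) = m + 1 - n / 2 - n % 2 := by simp [colOf]
    have hl := stair_lev e (e ⟨_, hmem⟩)
    rw [hr, hc] at hl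
    refine ⟨⟨e ⟨_, hmem⟩, by omega⟩, ?_⟩
    show 2 * rowOf e (e ⟨_, hmem⟩) + lev e (e ⟨_, hmem⟩) = n
    rw [hr]
    omega
  · intro y y'
    have h1 := stair_lev e y.1
    have h2 := stair_lev e y'.1
    have h3 := y.2
    have h4 := y'.2
    show colOf e y.1 = colOf e y'.1 ↔
      (2 * rowOf e y.1 + lev e y.1 + 1) / 2 = (2 * rowOf e y'.1 + lev e y'.1 + 1) / 2
    omega
  · intro y y'
    have h3 := y.2
    have h4 := y'.2
    show rowOf e y.1 = rowOf e y'.1 ↔
      (2 * rowOf e y.1 + lev e y.1) / 2 = (2 * rowOf e y'.1 + lev e y'.1) / 2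
    omega
  · intro y
    have h3 := y.2
    show lev e y.1 = (2 * rowOf e y.1 + lev e y.1) % 2
    omega
  · intro y
    have h3 := y.2
    show lev e y.1 = (2 * rowOf e y.1 + lev e y.1) % 2
    omega

/-- [D2] k = 2.  D = nu \ tau has 2m+3 cells; phi from `enum_cells`; cellY y = phi (idx y);
fY = product functional of `chain_main` with r3 = row of cellY, c3 = column of cellY.
hint: phi is lexicographic in (column, row).  hinj: two cells of D in the same column have rows in
[tau.colLen j, nu.colLen j), an interval of length at most 4. -/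
theorem band_good2 (m : ℕ) (tau nu : YoungDiagram) (hle : tau ≤ nu)
    (hcol : ∀ j, nu.colLen j ≤ tau.colLen j + 4) (hcard : nu.card = tau.card + (2 * m + 3)) :
    BandGood m 2 tau nu := by
  intro X _ _ e
  have hc := band_isChain m e
  set idx : {x // lev e x < 2} → ℕ := fun y => 2 * rowOf e y.1 + lev e y.1 with hidx
  set D : Finset (ℕ × ℕ) := nu.cells \ tau.cells with hD
  have hDcard : D.card = 2 * m + 3 := by
    have hsub : tau.cells ⊆ nu.cells := hle
    rw [hD, Finset.card_sdiff_of_subset hsub]
    have h1 : nu.cells.card = nu.card := rfl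
    have h2 : tau.cells.card = tau.card := rfl
    omega
  obtain ⟨φ, hφmem, hφlex⟩ := enum_cells D
  have hlt : ∀ y, idx y < D.card := by
    intro y
    have := hc.lt y
    rw [hDcard]
    omega
  have hmono : ∀ n n', n ≤ n' → n' < D.card → (φ n).2 ≤ (φ n').2 := by
    intro n n' h h'
    rcases Nat.eq_or_lt_of_le h with rfl | h1
    · exact le_rfl
    · rcases hφlex n n' h1 h' with h2 | h2
      · exact h2.le
      · exact h2.1.le
  have hφinj : ∀ n n', n < D.card → n' < D.card → φ n = φ n' → n = n' := by
    intro n n' hn hn' h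
    rcases Nat.lt_trichotomy n n' with h1 | h1 | h1
    · rcases hφlex n n' h1 hn' with h2 | h2
      · rw [h] at h2; exact absurd h2 (lt_irrefl _)
      · rw [h] at h2; exact absurd h2.2 (lt_irrefl _)
    · exact h1
    · rcases hφlex n' n h1 hn with h2 | h2
      · rw [h] at h2; exact absurd h2 (lt_irrefl _)
      · rw [h] at h2; exact absurd h2.2 (lt_irrefl _)
  have hinjY : Function.Injective (fun y => φ (idx y)) := by
    intro y y' h
    exact hc.inj (hφinj _ _ (hlt y) (hlt y') h)
  have hmemY : ∀ y, φ (idx y) ∈ nu ∧ φ (idx y) ∉ tau := by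
    intro y
    have := hφmem (idx y) (hlt y)
    rw [hD, Finset.mem_sdiff] at this
    exact ⟨this.1, fun h => this.2 h⟩
  refine ⟨fun y => φ (idx y), fun u u' => ∏ y, letL ((φ (idx y)).1 % 4) (u y) (u' y),
    hinjY, hmemY, ?_⟩
  refine chain_main hc (fun y => (φ (idx y)).1) (fun y => (φ (idx y)).2) ?_ ?_
  · intro y y' y'' h1 h2 h3
    have a1 := hmono _ _ h1 (hlt y')
    have a2 := hmono _ _ h2 (hlt y'')
    omega
  · intro y y' h1 h2
    apply hinjY
    show φ (idx y) = φ (idx y')
    have b1 := hmemY y
    have b2 := hmemY y'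
    have e1 : φ (idx y) = ((φ (idx y)).1, (φ (idx y)).2) := rfl
    have e2 : φ (idx y') = ((φ (idx y')).1, (φ (idx y')).2) := rfl
    rw [e1, YoungDiagram.mem_iff_lt_colLen, YoungDiagram.mem_iff_lt_colLen] at b1
    rw [e2, YoungDiagram.mem_iff_lt_colLen, YoungDiagram.mem_iff_lt_colLen] at b2
    have hcj := hcol (φ (idx y)).2
    rw [← h1] at b2
    apply Prod.ext
    · omega
    · exact h1

/-- [D3] k = 1.  Y = {lev = 0} has m+1 elements, colOf e and rowOf e are injective on Y; any injection
cellY of Y into D = nu \ tau (m+1 cells, pairwise distinct columns); fY = 1.  Then three of the four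
groups are trivial (`fixG_of_injective`) and QQ = card (fixG r3) is nonzero. -/
theorem band_good1 (m : ℕ) (tau nu : YoungDiagram) (hle : tau ≤ nu)
    (hcol : ∀ j, nu.colLen j ≤ tau.colLen j + 1) (hcard : nu.card = tau.card + (m + 1)) :
    BandGood m 1 tau nu := by
  intro X _ _ e
  classical
  -- cells of level zero
  have hlev : ∀ y : {x // lev e x < 1}, rowOf e y.1 + colOf e y.1 = m := by
    intro y
    have h1 := stair_lev e y.1
    have h2 := y.2
    omega
  have hcell : ∀ x x' : X, rowOf e x = rowOf e x' → colOf e x = colOf e x' → x = x' := by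
    intro x x' h1 h2
    apply e.symm.injective
    apply Subtype.ext
    exact Prod.ext h1 h2
  have hrow : Function.Injective (fun y : {x // lev e x < 1} => rowOf e y.1) := by
    intro y y' h
    simp only at h
    apply Subtype.ext
    apply hcell _ _ h
    have := hlev y
    have := hlev y'
    omega
  have hcolinj : Function.Injective (fun y : {x // lev e x < 1} => colOf e y.1) := by
    intro y y' h
    simp only at h
    apply Subtype.ext
    refine hcell _ _ ?_ h
    have := hlev y
    have := hlev y'
    omega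
  -- cardinality
  have hcardY : Fintype.card {x // lev e x < 1} ≤ m + 1 := by
    have : Fintype.card {x // lev e x < 1} ≤ Fintype.card (Fin (m + 1)) := by
      apply Fintype.card_le_of_injective
        (fun y : {x // lev e x < 1} => (⟨rowOf e y.1, by have := hlev y; omega⟩ : Fin (m + 1)))
      intro y y' h
      apply hrow
      simpa using h
    simpa using this
  have hD : (nu.cells \ tau.cells).card = m + 1 := by
    have hsub : tau.cells ⊆ nu.cells := hle
    rw [Finset.card_sdiff_of_subset hsub]
    have h1 : nu.cells.card = nu.card := rfl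
    have h2 : tau.cells.card = tau.card := rfl
    omega
  have hle' : Fintype.card {x // lev e x < 1} ≤ Fintype.card {c // c ∈ nu.cells \ tau.cells} := by
    rw [Fintype.card_coe, hD]
    exact hcardY
  obtain ⟨ι⟩ := Function.Embedding.nonempty_of_card_le hle'
  have hmem : ∀ y, (ι y).1 ∈ nu ∧ (ι y).1 ∉ tau := by
    intro y
    have := (ι y).2
    rw [Finset.mem_sdiff] at this
    exact this
  have hDcol : ∀ c c' : ℕ × ℕ, c ∈ nu → c ∉ tau → c' ∈ nu → c' ∉ tau → c.2 = c'.2 → c = c' := by
    intro c c' a1 a2 b1 b2 h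
    rw [YoungDiagram.mem_iff_lt_colLen] at a1 a2 b1 b2
    have := hcol c.2
    rw [← h] at b1 b2
    refine Prod.ext ?_ h
    omega
  have hc3 : Function.Injective (fun y : {x // lev e x < 1} => ((ι y).1).2) := by
    intro y y' h
    apply ι.injective
    apply Subtype.ext
    exact hDcol _ _ (hmem y).1 (hmem y).2 (hmem y').1 (hmem y').2 h
  refine ⟨fun y => (ι y).1, fun _ _ => 1, ?_, hmem, ?_⟩
  · intro y y' h
    exact ι.injective (Subtype.ext h)
  · unfold QQ psiP
    rw [fixG_of_injective hc3, fixG_of_injective hcolinj, fixG_of_injective hrow]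
    simp only [Finset.sum_singleton, sg_one, mul_one, Finset.sum_const, nsmul_eq_mul]
    exact_mod_cast (Finset.card_pos.mpr ⟨1, one_mem_fixG _⟩).ne'

end Vale.Agent.P197
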