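import Vale.Agent.P197.Sx.Link

/-! Base evaluation: identity letters everywhere except at the last position. -/

namespace Vale.Agent.P197

open Equiv

variable {Y : Type*} [Fintype Y] [DecidableEq Y]

theorem base_rigid {M : ℕ} {idx cA a cB b : Y → ℕ} (hc : IsChain M idx cA a cB b)
    {q p : Perm Y} (hq : q ∈ fixG cA) (hp : p ∈ fixG cB)
    (hab : ∀ y, idx y < 2 * M → a (q⁻¹ y) = b (p⁻¹ y)) : q = 1 ∧ p = 1 := by
  have hqA : ∀ y, (idx (q⁻¹ y) + 1) / 2 = (idx y + 1) / 2 := fun y =>
    (hc.hA _ _).1 (mem_fixG.1 (inv_mem_fixG hq) y)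
  have hpB : ∀ y, idx (p⁻¹ y) / 2 = idx y / 2 := fun y =>
    (hc.hB _ _).1 (mem_fixG.1 (inv_mem_fixG hp) y)
  have hab' : ∀ y, idx y < 2 * M → idx (q⁻¹ y) % 2 = idx (p⁻¹ y) % 2 := by
    intro y hy
    have := hab y hy
    rwa [hc.ha, hc.hb] at this
  have main : ∀ n, ∀ y, idx y = n → q⁻¹ y = y ∧ p⁻¹ y = y := by
    intro n
    induction n with
    | zero =>
      intro y hy
      have h1 : q⁻¹ y = y := by
        apply hc.inj
        have := hqA y
        omega
      refine ⟨h1, ?_⟩
      apply hc.inj
      have h2 := hpB y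
      have h3 := hc.lt (p⁻¹ y)
      by_cases hM : idx y < 2 * M
      · have h4 := hab' y hM
        rw [h1] at h4
        omega
      · omega
    | succ n ih =>
      intro y hy
      have hly := hc.lt y
      rcases Nat.even_or_odd (n + 1) with he | ho
      · have he' : (n + 1) % 2 = 0 := Nat.even_iff.1 he
        have h1 : q⁻¹ y = y := by
          apply hc.inj
          have h2 := hqA y
          by_contra hne
          have h3 : idx (q⁻¹ y) = n := by omega
          have h4 := (ih _ h3).1
          have h5 : q⁻¹ y = y := q⁻¹.injective h4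
          exact hne (by rw [h5])
        refine ⟨h1, ?_⟩
        apply hc.inj
        have h2 := hpB y
        have h3 := hc.lt (p⁻¹ y)
        by_cases hM : idx y < 2 * M
        · have h4 := hab' y hM
          rw [h1] at h4
          omega
        · omega
      · have ho' : (n + 1) % 2 = 1 := Nat.odd_iff.1 ho
        have h1 : p⁻¹ y = y := by
          apply hc.inj
          have h2 := hpB y
          by_contra hne
          have h3 : idx (p⁻¹ y) = n := by omega
          have h4 := (ih _ h3).2
          have h5 : p⁻¹ y = y := p⁻¹.injective h4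
          exact hne (by rw [h5])
        refine ⟨?_, h1⟩
        apply hc.inj
        have h2 := hqA y
        have hM : idx y < 2 * M := by omega
        have h4 := hab' y hM
        rw [h1] at h4
        omega
  constructor
  · have : q⁻¹ = 1 := by
      ext y
      exact (main _ y rfl).1
    exact inv_eq_one.1 this
  · have : p⁻¹ = 1 := by
      ext y
      exact (main _ y rfl).2
    exact inv_eq_one.1 this

/-- [B1] Only (q, p) = (1, 1) contributes.  If the product is nonzero then a (q⁻¹ y) = b (p⁻¹ y) for all y with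
idx y < 2M.  Induction on n = idx y shows a (q⁻¹ y) = n % 2 and b (p⁻¹ y) = n % 2:
position 0 is a cA-singleton; {n, n+1} is a cB-block for n even and a cA-block for n odd, and a block
of size two on which one label is known determines the other.  Since a is injective on cA-blocks,
q = 1; likewise p = 1. -/
theorem Pf_base {M : ℕ} {idx cA a cB b : Y → ℕ} (hc : IsChain M idx cA a cB b)
    (ζ : Y → ℕ → ℕ → ℂ)
    (hid : ∀ y, idx y < 2 * M → ∀ α β, ζ y α β = if α = β then 1 else 0)
    (yl : Y) (hyl : idx yl = 2 * M) : Pf cA a cB b ζ = ζ yl 0 0 := by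
  have hzero : ∀ q ∈ fixG cA, ∀ p ∈ fixG cB, ¬ (q = 1 ∧ p = 1) →
      ∏ y, ζ y (a (q⁻¹ y)) (b (p⁻¹ y)) = 0 := by
    intro q hq p hp hne
    by_contra hprod
    apply hne
    apply base_rigid hc hq hp
    intro y hy
    by_contra hab
    apply hprod
    refine Finset.prod_eq_zero (Finset.mem_univ y) ?_
    rw [hid y hy, if_neg hab]
  unfold Pf
  rw [Finset.sum_eq_single_of_mem 1 (one_mem_fixG cA),
    Finset.sum_eq_single_of_mem 1 (one_mem_fixG cB)]
  · rw [sg_one, one_mul, one_mul, Finset.prod_eq_single yl]
    · simp only [inv_one, Perm.coe_one, id_eq]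
      rw [hc.ha, hc.hb, hyl]
      simp
    · intro y _ hy
      have h1 : idx y ≠ 2 * M := fun h => hy (hc.inj (h.trans hyl.symm))
      have h2 := hc.lt y
      simp only [inv_one, Perm.coe_one, id_eq]
      rw [hid y (by omega), hc.ha, hc.hb, if_pos rfl]
    · intro h
      exact absurd (Finset.mem_univ yl) h
  · intro p hp hp1
    rw [hzero 1 (one_mem_fixG cA) p hp (fun h => hp1 h.2), mul_zero]
  · intro q hq hq1
    refine Finset.sum_eq_zero (fun p hp => ?_)
    rw [hzero q hq p hp (fun h => hq1 h.1), mul_zero]

end Vale.Agent.P197
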