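import Vale.Agent.P197.MixFinal

/-!
Saxl package, basic definitions.  See notes/P197_saxl_blueprint.md.

`fixG c`     : permutations preserving the function `c` (its fibres are the blocks).
`psiP .. f g`: pairing of the functional `f` with `g . (e(cA,a) (x) e(cB,b))`, where
               `e(c,a) = sum over q in fixG c of sign q . delta_(act q a)`.
`QQ`         : pairing of `f` with `rho kappa xi`  (rho = sum over fixG r3, kappa = signed sum over fixG c3).
`PP`         : pairing of `f` with `kappa rho (h0 xi)`.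
-/

namespace Vale.Agent.P197

open Equiv

section

variable {X : Type*} [Fintype X] [DecidableEq X]

def fixG (c : X → ℕ) : Finset (Perm X) := Finset.univ.filter (fun q => ∀ x, c (q x) = c x)

noncomputable def sg (q : Perm X) : ℂ := ((Perm.sign q : ℤ) : ℂ)

noncomputable def psiP (cA a cB b : X → ℕ) (f : (X → ℕ) → (X → ℕ) → ℂ) (g : Perm X) : ℂ :=
  ∑ q ∈ fixG cA, ∑ p ∈ fixG cB, sg q * sg p * f (act (g * q) a) (act (g * p) b)

noncomputable def QQ (r3 c3 cA a cB b : X → ℕ) (f : (X → ℕ) → (X → ℕ) → ℂ) : ℂ :=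
  ∑ r ∈ fixG r3, ∑ q ∈ fixG c3, sg q * psiP cA a cB b f (r * q)

noncomputable def PP (r3 c3 cA a cB b : X → ℕ) (f : (X → ℕ) → (X → ℕ) → ℂ) (h0 : Perm X) : ℂ :=
  ∑ q ∈ fixG c3, ∑ r ∈ fixG r3, sg q * psiP cA a cB b f (q * r * h0)

def lev {m : ℕ} (e : Tableau (staircase m) X) (x : X) : ℕ := m - 1 - rowOf e x - colOf e x

theorem mem_fixG {c : X → ℕ} {q : Perm X} : q ∈ fixG c ↔ ∀ x, c (q x) = c x := by
  simp [fixG]

theorem one_mem_fixG (c : X → ℕ) : (1 : Perm X) ∈ fixG c := by
  simp [mem_fixG]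

theorem mul_mem_fixG {c : X → ℕ} {q p : Perm X} (hq : q ∈ fixG c) (hp : p ∈ fixG c) :
    q * p ∈ fixG c := by
  rw [mem_fixG] at *
  intro x
  rw [Perm.mul_apply, hq, hp]

theorem inv_mem_fixG {c : X → ℕ} {q : Perm X} (hq : q ∈ fixG c) : q⁻¹ ∈ fixG c := by
  rw [mem_fixG] at *
  intro x
  have := hq (q⁻¹ x)
  rw [perm_apply_inv] at this
  exact this.symm

theorem fixG_colOf {μ : YoungDiagram} (t : Tableau μ X) : fixG (colOf t) = colGroup t := rfl

theorem sg_one : sg (1 : Perm X) = 1 := by simp [sg]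

theorem sg_mul (q p : Perm X) : sg (q * p) = sg q * sg p := by
  simp [sg, Perm.sign_mul]

theorem sg_inv (q : Perm X) : sg q⁻¹ = sg q := by
  simp [sg, Perm.sign_inv]

theorem sg_mul_self (q : Perm X) : sg q * sg q = 1 := by
  have : ((Perm.sign q : ℤ)) * ((Perm.sign q : ℤ)) = 1 := by
    rw [← Units.val_mul, Int.units_mul_self]
    rfl
  unfold sg
  exact_mod_cast this

theorem sg_ne_zero (q : Perm X) : sg q ≠ 0 := by
  intro h
  have := sg_mul_self q
  rw [h] at this
  simp at this

theorem fixG_congr {c c' : X → ℕ} (h : ∀ x y, c x = c y ↔ c' x = c' y) : fixG c = fixG c' := by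
  ext q
  rw [mem_fixG, mem_fixG]
  exact forall_congr' (fun x => h (q x) x)

theorem fixG_of_injective {c : X → ℕ} (h : Function.Injective c) : fixG c = {1} := by
  ext q
  rw [mem_fixG, Finset.mem_singleton]
  constructor
  · intro hq
    ext x
    exact h (hq x)
  · rintro rfl x
    rfl

theorem stair_lev {m : ℕ} (e : Tableau (staircase m) X) (x : X) :
    lev e x + rowOf e x + colOf e x + 1 = m := by
  have := stair_lt e x
  unfold lev
  omega

end

/-- `StairGood m nu`: for the vector `xi_m = e(columns, lev) (x) e(rows, lev)` of the staircase of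
size `m` there is a tableau `t3` of shape `nu` with `rho kappa xi_m` nonzero. -/
def StairGood (m : ℕ) (nu : YoungDiagram) : Prop :=
  ∀ (X : Type) [Fintype X] [DecidableEq X] (e : Tableau (staircase m) X),
    ∃ (t3 : Tableau nu X) (f : (X → ℕ) → (X → ℕ) → ℂ),
      QQ (rowOf t3) (colOf t3) (colOf e) (lev e) (rowOf e) (lev e) f ≠ 0

/-- the part of the statement living on the outer `k` antidiagonals. -/
def BandGood (m k : ℕ) (tau nu : YoungDiagram) : Prop :=
  ∀ (X : Type) [Fintype X] [DecidableEq X] (e : Tableau (staircase (m + k)) X),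
    ∃ (cellY : {x // lev e x < k} → ℕ × ℕ)
      (fY : ({x // lev e x < k} → ℕ) → ({x // lev e x < k} → ℕ) → ℂ),
      Function.Injective cellY ∧ (∀ y, cellY y ∈ nu ∧ cellY y ∉ tau) ∧
      QQ (fun y => (cellY y).1) (fun y => (cellY y).2) (fun y => colOf e y.1)
        (fun y => lev e y.1) (fun y => rowOf e y.1) (fun y => lev e y.1) fY ≠ 0

end Vale.Agent.P197
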