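import Vale.Agent.P197.Sx.Word
import Vale.Agent.P197.Sx.Anti

namespace Vale.Agent.P197

open Equiv

variable {Y : Type*} [Fintype Y] [DecidableEq Y]

/-- [M1] psiP of a product functional is Pf of the translated letters (reindex the product by y -> g y). -/
theorem psiP_prod (cA a cB b : Y → ℕ) (ζ : Y → ℕ → ℕ → ℂ) (g : Perm Y) :
    psiP cA a cB b (fun u u' => ∏ y, ζ y (u y) (u' y)) g = Pf cA a cB b (fun y => ζ (g y)) := by
  unfold psiP Pf
  refine Finset.sum_congr rfl (fun q _ => Finset.sum_congr rfl (fun p _ => ?_))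
  congr 1
  show ∏ y, ζ y (act (g * q) a y) (act (g * p) b y) = ∏ y, ζ (g y) (a (q⁻¹ y)) (b (p⁻¹ y))
  rw [← Equiv.prod_comp g (fun y => ζ y (act (g * q) a y) (act (g * p) b y))]
  refine Finset.prod_congr rfl (fun y _ => ?_)
  simp [act, mul_inv_rev]

/-- [M2] QQ = |fixG r3| * |fixG c3| * Pf(word), by `psiP_prod`, r3 (r x) = r3 x, `Pf_antisymm`, `Pf_word_ne`. -/
theorem chain_main {M : ℕ} {idx cA a cB b : Y → ℕ} (hc : IsChain M idx cA a cB b) (r3 c3 : Y → ℕ)
    (hint : ∀ y y' y'', idx y ≤ idx y' → idx y' ≤ idx y'' → c3 y = c3 y'' → c3 y' = c3 y)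
    (hinj : ∀ y y', c3 y = c3 y' → r3 y % 4 = r3 y' % 4 → y = y') :
    QQ r3 c3 cA a cB b (fun u u' => ∏ y, letL (r3 y % 4) (u y) (u' y)) ≠ 0 := by
  have key : ∀ r ∈ fixG r3, ∀ q ∈ fixG c3,
      sg q * psiP cA a cB b (fun u u' => ∏ y, letL (r3 y % 4) (u y) (u' y)) (r * q) =
        Pf cA a cB b (fun y => letL (r3 y % 4)) := by
    intro r hr q hq
    rw [psiP_prod cA a cB b (fun y => letL (r3 y % 4)) (r * q)]
    have h1 : (fun y => letL (r3 ((r * q) y) % 4)) = fun y => letL (r3 (q y) % 4) := by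
      funext y
      rw [Perm.mul_apply, mem_fixG.mp hr]
    rw [h1, Pf_antisymm hc c3 r3 hint hinj q hq, ← mul_assoc, sg_mul_self, one_mul]
  unfold QQ
  rw [Finset.sum_congr rfl (fun r hr => Finset.sum_congr rfl (fun q hq => key r hr q hq))]
  simp only [Finset.sum_const, nsmul_eq_mul]
  have h1 : ((fixG r3).card : ℂ) ≠ 0 := by
    exact_mod_cast (Finset.card_pos.mpr ⟨1, one_mem_fixG r3⟩).ne'
  have h2 : ((fixG c3).card : ℂ) ≠ 0 := by
    exact_mod_cast (Finset.card_pos.mpr ⟨1, one_mem_fixG c3⟩).ne'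
  exact mul_ne_zero h1 (mul_ne_zero h2 (Pf_word_ne hc r3))

end Vale.Agent.P197
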