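import Vale.Agent.P197.Sx.Basic

/-! Young diagram combinatorics for the covering argument. -/

namespace Vale.Agent.P197

private theorem exists_add_cell {μ ν : YoungDiagram} (h : μ ≤ ν) (hc : μ.card < ν.card) :
    ∃ τ : YoungDiagram, μ ≤ τ ∧ τ ≤ ν ∧ τ.card = μ.card + 1 := by
  classical
  have hsub : μ.cells ⊆ ν.cells := h
  have hne : (ν.cells \ μ.cells).Nonempty := by
    rw [Finset.sdiff_nonempty]
    intro hh
    have := Finset.card_le_card hh
    simp only [YoungDiagram.card] at hc
    omega
  obtain ⟨c, hcm, hmin⟩ := Finset.exists_min_image (ν.cells \ μ.cells) (fun c => c.1 + c.2) hne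
  rw [Finset.mem_sdiff] at hcm
  refine ⟨⟨insert c μ.cells, ?_⟩, ?_, ?_, ?_⟩
  · intro a b hba ha
    simp only [Finset.coe_insert, Set.mem_insert_iff, Finset.mem_coe] at ha ⊢
    rcases ha with rfl | ha
    · by_cases hb : b = a
      · exact Or.inl hb
      · right
        by_contra hbm
        have hbn : b ∈ ν.cells := ν.isLowerSet hba hcm.1
        have := hmin b (Finset.mem_sdiff.mpr ⟨hbn, hbm⟩)
        have h1 : b.1 ≤ a.1 := hba.1
        have h2 : b.2 ≤ a.2 := hba.2
        apply hb
        apply Prod.ext <;> omega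
    · exact Or.inr (μ.isLowerSet hba ha)
  · intro x hx
    exact Finset.mem_insert_of_mem hx
  · intro x hx
    rcases Finset.mem_insert.mp hx with rfl | hx
    · exact hcm.1
    · exact hsub hx
  · simp only [YoungDiagram.card]
    exact Finset.card_insert_of_notMem hcm.2

/-- [C1] between two nested Young diagrams every cardinality occurs
(induction on nu.card - n: remove from nu a cell outside al that is maximal for the product order). -/
theorem exists_between (al nu : YoungDiagram) (h : al ≤ nu) (n : ℕ) (h1 : al.card ≤ n)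
    (h2 : n ≤ nu.card) : ∃ tau : YoungDiagram, al ≤ tau ∧ tau ≤ nu ∧ tau.card = n := by
  obtain ⟨d, rfl⟩ := Nat.exists_eq_add_of_le h1
  induction d with
  | zero => exact ⟨al, le_refl _, h, rfl⟩
  | succ d ih =>
    obtain ⟨τ, a, b, c⟩ := ih (by omega) (by omega)
    obtain ⟨τ', a', b', c'⟩ := exists_add_cell b (by omega)
    exact ⟨τ', le_trans a a', b', by omega⟩

/-- nu with the bottom s cells of every column removed. -/
def shiftUp (nu : YoungDiagram) (s : ℕ) : YoungDiagram where
  cells := nu.cells.filter (fun c => (c.1 + s, c.2) ∈ nu)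
  isLowerSet := by
    intro a b hab ha
    simp only [Finset.coe_filter, Set.mem_ofPred_eq, YoungDiagram.mem_cells] at ha ⊢
    exact ⟨nu.up_left_mem hab.1 hab.2 ha.1, nu.up_left_mem (Nat.add_le_add_right hab.1 s) hab.2 ha.2⟩

theorem shiftUp_le (nu : YoungDiagram) (s : ℕ) : shiftUp nu s ≤ nu := by
  intro c hc
  have : c ∈ (shiftUp nu s).cells := hc
  simp only [shiftUp, Finset.mem_filter, YoungDiagram.mem_cells] at this
  exact this.1

theorem mem_shiftUp {nu : YoungDiagram} {s : ℕ} {c : ℕ × ℕ} :
    c ∈ shiftUp nu s ↔ (c.1 + s, c.2) ∈ nu := by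
  constructor
  · intro h
    exact (Finset.mem_filter.mp h).2
  · intro h
    refine Finset.mem_filter.mpr ⟨nu.isLowerSet (a := (c.1 + s, c.2)) ?_ h, h⟩
    exact ⟨Nat.le_add_right _ _, le_refl _⟩

/-- [C2] the removed cells are in bijection with the cells of the first s rows: (i, j) -> (i + s ... ),
i.e. c -> (c.1 + s, c.2) maps shiftUp nu s bijectively onto the cells of nu in rows >= s. -/
theorem shiftUp_card (nu : YoungDiagram) (s : ℕ) :
    (shiftUp nu s).card + ∑ i ∈ Finset.range s, nu.rowLen i = nu.card := by
  classical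
  have h1 : (shiftUp nu s).card = (nu.cells.filter (fun c => s ≤ c.1)).card := by
    simp only [YoungDiagram.card]
    refine Finset.card_bij (fun c _ => (c.1 + s, c.2)) ?_ ?_ ?_
    · intro c hc
      exact Finset.mem_filter.mpr ⟨mem_shiftUp.mp hc, Nat.le_add_left _ _⟩
    · intro c _ c' _ hcc
      simp only [Prod.mk.injEq] at hcc
      apply Prod.ext <;> omega
    · intro c hc
      rw [Finset.mem_filter] at hc
      refine ⟨(c.1 - s, c.2), ?_, ?_⟩
      · apply mem_shiftUp.mpr
        have : c.1 - s + s = c.1 := Nat.sub_add_cancel hc.2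
        simp only [this]
        exact hc.1
      · apply Prod.ext
        · exact Nat.sub_add_cancel hc.2
        · rfl
  have h2 : (nu.cells.filter (fun c => ¬ s ≤ c.1)).card = ∑ i ∈ Finset.range s, nu.rowLen i := by
    rw [Finset.card_eq_sum_card_fiberwise (f := Prod.fst) (t := Finset.range s)]
    · refine Finset.sum_congr rfl (fun i hi => ?_)
      rw [Finset.mem_range] at hi
      rw [YoungDiagram.rowLen_eq_card, Finset.filter_filter]
      congr 1
      ext c
      simp only [Finset.mem_filter, YoungDiagram.mem_row_iff, YoungDiagram.mem_cells]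
      constructor
      · rintro ⟨h, _, h'⟩
        exact ⟨h, h'⟩
      · rintro ⟨h, h'⟩
        exact ⟨h, by omega, h'⟩
    · intro c hc
      have := (Finset.mem_filter.mp hc).2
      simp only [Finset.coe_range, Set.mem_Iio]
      omega
  rw [h1, ← h2]
  simp only [YoungDiagram.card]
  exact Finset.card_filter_add_card_filter_not _

/-- [C2] if nu.colLen j > tau.colLen j + s then the cell (tau.colLen j, j) is in shiftUp nu s but not in tau. -/
theorem colLen_le_of_shiftUp_le (nu tau : YoungDiagram) (s : ℕ) (h : shiftUp nu s ≤ tau) (j : ℕ) :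
    nu.colLen j ≤ tau.colLen j + s := by
  by_contra hcon
  have hlt : tau.colLen j + s < nu.colLen j := not_le.mp hcon
  have h1 : (tau.colLen j + s, j) ∈ nu := YoungDiagram.mem_iff_lt_colLen.mpr hlt
  have h2 : (tau.colLen j, j) ∈ shiftUp nu s := mem_shiftUp.mpr h1
  have h3 : (tau.colLen j, j) ∈ tau := h h2
  exact absurd (YoungDiagram.mem_iff_lt_colLen.mp h3) (lt_irrefl _)

/-- removal of a skew piece of size n with columns of length at most s. -/
theorem exists_strip (nu : YoungDiagram) (s n : ℕ) (hn : n ≤ ∑ i ∈ Finset.range s, nu.rowLen i) :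
    ∃ tau : YoungDiagram, tau ≤ nu ∧ nu.card = tau.card + n ∧
      ∀ j, nu.colLen j ≤ tau.colLen j + s := by
  obtain ⟨tau, h1, h2, h3⟩ := exists_between (shiftUp nu s) nu (shiftUp_le nu s) (nu.card - n)
    (by have := shiftUp_card nu s; omega) (by omega)
  refine ⟨tau, h2, ?_, colLen_le_of_shiftUp_le nu tau s h1⟩
  have := shiftUp_card nu s
  omega

private theorem antitone_psum (f : ℕ → ℕ) (hf : Antitone f) (r : ℕ) (hr : 4 ≤ r) :
    4 * ∑ i ∈ Finset.range r, f i ≤ r * ∑ i ∈ Finset.range 4, f i := by
  induction r, hr using Nat.le_induction with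
  | base => rfl
  | succ r hr ih =>
    rw [Finset.sum_range_succ]
    have h4 : 4 * f r ≤ ∑ i ∈ Finset.range 4, f i := by
      have : ∀ i ∈ Finset.range 4, f r ≤ f i := by
        intro i hi
        rw [Finset.mem_range] at hi
        exact hf (by omega)
      calc 4 * f r = ∑ _i ∈ Finset.range 4, f r := by simp
        _ ≤ _ := Finset.sum_le_sum this
    nlinarith

private theorem two_sum_stair_le (m r : ℕ) (hr : r ≤ m) :
    2 * ∑ i ∈ Finset.range r, (m - i) + r * r = r * (2 * m + 1) := by
  induction r with
  | zero => simp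
  | succ r ih =>
    rw [Finset.sum_range_succ]
    have := ih (by omega)
    obtain ⟨d, rfl⟩ := Nat.exists_eq_add_of_le (show r + 1 ≤ m from hr)
    have h : r + 1 + d - r = d + 1 := by omega
    rw [h]
    nlinarith

/-- [C3] thin shapes are dominated by the staircase.  S4 = sum of the first four rows, S4 + 2 <= 2m.
r <= 4: direct.  5 <= r <= m: rowLen 3 <= S4 / 4, so the sum of the first r rows is at most S4 * r / 4 <= (m-1) r / 2
<= r (2m - r + 1) / 2.  r >= m: the left side is at most nu.card. -/
theorem dominated_of_thin (m : ℕ) (nu : YoungDiagram) (hcard : nu.card = m * (m + 1) / 2)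
    (h1 : nu.rowLen 0 < m) (h4 : ∑ i ∈ Finset.range 4, nu.rowLen i + 2 ≤ 2 * m) (r : ℕ) :
    ∑ i ∈ Finset.range r, nu.rowLen i ≤ ∑ i ∈ Finset.range r, (m - i) := by
  have hanti : Antitone nu.rowLen := fun a b hab => nu.rowLen_anti a b hab
  rcases Nat.lt_or_ge r m with hr | hr
  · rcases Nat.lt_or_ge r 4 with hr4 | hr4
    · simp only [Finset.sum_range_succ, Finset.sum_range_zero] at h4
      interval_cases r <;> simp only [Finset.sum_range_succ, Finset.sum_range_zero] <;> omega
    · have e1 := antitone_psum nu.rowLen hanti r hr4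
      have e2 := two_sum_stair_le m r hr.le
      have e3 : r * ∑ i ∈ Finset.range 4, nu.rowLen i + 2 * r ≤ r * (2 * m) := by
        calc r * ∑ i ∈ Finset.range 4, nu.rowLen i + 2 * r
            = r * (∑ i ∈ Finset.range 4, nu.rowLen i + 2) := by ring
          _ ≤ r * (2 * m) := Nat.mul_le_mul_left r h4
      have e4 : r * r ≤ r * m := Nat.mul_le_mul_left r hr.le
      nlinarith
  · have e1 := shiftUp_card nu r
    have e2 := two_mul_sum_stair' m
    have e3 : ∑ i ∈ Finset.range m, (m - i) ≤ ∑ i ∈ Finset.range r, (m - i) :=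
      Finset.sum_le_sum_of_subset (Finset.range_mono hr)
    generalize m * (m + 1) = t at *
    omega

private theorem sum_trunc_le (m k r : ℕ) :
    ∑ i ∈ Finset.range r, (m - i - k) ≤ ∑ i ∈ Finset.range m, (m - i - k) := by
  rcases Nat.le_total r m with h | h
  · exact Finset.sum_le_sum_of_subset (Finset.range_mono h)
  · apply le_of_eq
    symm
    apply Finset.sum_subset (Finset.range_mono h)
    intro x _ hx
    rw [Finset.mem_range] at hx
    omega

private theorem stair_shift (m k : ℕ) :
    ∑ i ∈ Finset.range m, (m - i - k) = (m - k) + ∑ i ∈ Finset.range m, (m - i - (k + 1)) := by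
  cases m with
  | zero => simp
  | succ m =>
    rw [Finset.sum_range_succ', Finset.sum_range_succ (fun i => m + 1 - i - (k + 1))]
    have h1 : ∑ i ∈ Finset.range m, (m + 1 - (i + 1) - k) =
        ∑ i ∈ Finset.range m, (m + 1 - i - (k + 1)) :=
      Finset.sum_congr rfl (fun i _ => by omega)
    rw [h1]
    have h2 : m + 1 - m - (k + 1) = 0 := by omega
    rw [h2]
    simp only [Nat.sub_zero]
    omega

private theorem stair_split (m k : ℕ) :
    ∑ i ∈ Finset.range k, (m - i) + ∑ i ∈ Finset.range m, (m - i - k) =
      ∑ i ∈ Finset.range m, (m - i) := by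
  induction k with
  | zero => simp
  | succ k ih =>
    rw [Finset.sum_range_succ, ← ih, stair_shift m k]
    omega

/-- [C4] conjugate form of dominance.  sum over j < k of colLen j = sum over i of min (rowLen i) k; with
r = number of rows longer than k:  card - that = sum over i < r of (rowLen i - k) <= sum over i < r of (m - i - k)
<= sum over i of (m - i - k)^+ = sum over j >= k of (m - j). -/
theorem dominated_conj (m : ℕ) (nu : YoungDiagram) (hcard : nu.card = m * (m + 1) / 2)
    (hdom : ∀ r, ∑ i ∈ Finset.range r, nu.rowLen i ≤ ∑ i ∈ Finset.range r, (m - i)) (k : ℕ) :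
    ∑ j ∈ Finset.range k, (m - j) ≤ ∑ j ∈ Finset.range k, nu.colLen j := by
  classical
  set r := nu.colLen k with hr
  have hlow : (nu.cells.filter (fun c => c.2 < k)).card = ∑ j ∈ Finset.range k, nu.colLen j := by
    rw [Finset.card_eq_sum_card_fiberwise (f := Prod.snd) (t := Finset.range k)]
    · refine Finset.sum_congr rfl (fun j hj => ?_)
      rw [Finset.mem_range] at hj
      rw [YoungDiagram.colLen_eq_card, Finset.filter_filter]
      congr 1
      ext c
      simp only [Finset.mem_filter, YoungDiagram.mem_col_iff, YoungDiagram.mem_cells]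
      constructor
      · rintro ⟨h, _, h'⟩
        exact ⟨h, h'⟩
      · rintro ⟨h, h'⟩
        exact ⟨h, by omega, h'⟩
    · intro c hc
      have := (Finset.mem_filter.mp hc).2
      simp only [Finset.coe_range, Set.mem_Iio]
      exact this
  have hhigh : (nu.cells.filter (fun c => ¬ c.2 < k)).card =
      ∑ i ∈ Finset.range r, (nu.rowLen i - k) := by
    rw [Finset.card_eq_sum_card_fiberwise (f := Prod.fst) (t := Finset.range r)]
    · refine Finset.sum_congr rfl (fun i _ => ?_)
      have : (nu.cells.filter (fun c => ¬ c.2 < k)).filter (fun c => c.1 = i) =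
          {i} ×ˢ Finset.Ico k (nu.rowLen i) := by
        ext ⟨a, b⟩
        simp only [Finset.mem_filter, YoungDiagram.mem_cells, Finset.mem_product,
          Finset.mem_singleton, Finset.mem_Ico, YoungDiagram.mem_iff_lt_rowLen]
        constructor
        · rintro ⟨⟨h1, h2⟩, rfl⟩
          exact ⟨rfl, by omega, h1⟩
        · rintro ⟨rfl, h2, h3⟩
          exact ⟨⟨h3, by omega⟩, rfl⟩
      rw [this, Finset.card_product, Finset.card_singleton, one_mul, Nat.card_Ico]
    · intro c hc
      have hc' := Finset.mem_filter.mp hc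
      have h1 : (c.1, k) ∈ nu := nu.up_left_mem (le_refl _) (not_lt.mp hc'.2) hc'.1
      simp only [Finset.coe_range, Set.mem_Iio]
      exact YoungDiagram.mem_iff_lt_colLen.mp h1
  have hsplit : (nu.cells.filter (fun c => c.2 < k)).card +
      (nu.cells.filter (fun c => ¬ c.2 < k)).card = nu.card :=
    Finset.card_filter_add_card_filter_not _
  have hA : ∑ i ∈ Finset.range r, (nu.rowLen i - k) + r * k = ∑ i ∈ Finset.range r, nu.rowLen i := by
    have : ∑ i ∈ Finset.range r, nu.rowLen i = ∑ i ∈ Finset.range r, ((nu.rowLen i - k) + k) := by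
      refine Finset.sum_congr rfl (fun i hi => ?_)
      rw [Finset.mem_range] at hi
      have h1 : (i, k) ∈ nu := YoungDiagram.mem_iff_lt_colLen.mpr hi
      have h2 := YoungDiagram.mem_iff_lt_rowLen.mp h1
      omega
    rw [this, Finset.sum_add_distrib]
    simp
  have hT : ∑ i ∈ Finset.range r, (m - i) ≤ ∑ i ∈ Finset.range r, (m - i - k) + r * k := by
    have : ∑ i ∈ Finset.range r, (m - i) ≤ ∑ i ∈ Finset.range r, ((m - i - k) + k) :=
      Finset.sum_le_sum (fun i _ => by omega)
    rw [Finset.sum_add_distrib] at this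
    simpa using this
  have hU := sum_trunc_le m k r
  have hC := stair_split m k
  have hD := hdom r
  have e2 := two_mul_sum_stair' m
  rw [← hlow]
  generalize m * (m + 1) = t at *
  omega

end Vale.Agent.P197
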