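import Vale.Agent.P197.Sx.Adj

/-! From StairGood to positivity of the Kronecker coefficient. -/

namespace Vale.Agent.P197

open Equiv

open scoped TensorProduct

variable {X : Type*} [Fintype X] [DecidableEq X]

/-- [K1] copy of the proof of `exists_intertwiner_seed` (Seed.lean) with the weaker hypothesis `sum nonzero`. -/
theorem exists_intertwiner_sum {l1 l2 mu : YoungDiagram} (t3 : Tableau mu X)
    (z : (spechtSub l1 X).toSubmodule) (y : (spechtSub l2 X).toSubmodule)
    (f1 f2 : ((X → ℕ) →₀ ℂ) →ₗ[ℂ] ℂ)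
    (H : ∑ g : Perm X, polytabloid t3 (act g (rowOf t3)) *
      (f1 (labRep X g z.1) * f2 (labRep X g y.1)) ≠ 0) :
    ∃ F : Representation.IntertwiningMap (spechtRep mu X)
      ((spechtRep l1 X).tprod (spechtRep l2 X)), F ≠ 0 := by
  refine ⟨⟨bigMapS (z ⊗ₜ[ℂ] y) (rowOf t3) ∘ₗ (spechtSub mu X).toSubmodule.subtype, ?_⟩, ?_⟩
  · intro g
    ext w
    exact bigMapS_equivariant (z ⊗ₜ[ℂ] y) (rowOf t3) g w.1
  · intro hf
    have h0 : bigMapS (z ⊗ₜ[ℂ] y) (rowOf t3) (polytabloid t3) = 0 := by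
      have := congrArg (fun f : Representation.IntertwiningMap (spechtRep mu X)
        ((spechtRep l1 X).tprod (spechtRep l2 X)) => f ⟨polytabloid t3, polytabloid_mem t3⟩) hf
      exact this
    have h1 := congrArg (evalL (l1 := l1) (l2 := l2) f1 f2) h0
    rw [bigMapS_apply, map_sum, map_zero] at h1
    apply H
    rw [← h1]
    refine Finset.sum_congr rfl (fun g _ => ?_)
    rw [map_smul, evalL_tens, smul_eq_mul]

/-- [K2] `PP_delta` gives u1 u2; f1 = Finsupp.lapply u1, f2 = Finsupp.lapply u2 (Finsupp.single_apply);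
PP = sum over g of polytabloid t3 (act g (rowOf t3)) * psiP .. (g * h0) by `sum_regroup` (Phi g = psiP .. (g * h0));
`psiP_eq_poly`; labRep X (g * h0) = labRep X g o labRep X h0 (map_mul), `labRep_polytabloid`;
`exists_intertwiner_sum` with z = polytabloid (t1.trans h0), y = polytabloid (t2.trans h0) (`polytabloid_mem`). -/
theorem intertwiner_of_PP {l1 l2 mu : YoungDiagram} (t1 : Tableau l1 X) (t2 : Tableau l2 X)
    (t3 : Tableau mu X) (f : (X → ℕ) → (X → ℕ) → ℂ) (h0 : Perm X)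
    (h : PP (rowOf t3) (colOf t3) (colOf t1) (rowOf t1) (colOf t2) (rowOf t2) f h0 ≠ 0) :
    ∃ F : Representation.IntertwiningMap (spechtRep mu X)
      ((spechtRep l1 X).tprod (spechtRep l2 X)), F ≠ 0 := by
  obtain ⟨u1, u2, hd⟩ := PP_delta _ _ _ _ _ _ f h0 h
  have hF : (fun u u' : X → ℕ => ((if u = u1 then 1 else 0 : ℂ)) * (if u' = u2 then 1 else 0)) =
      (fun u u' => (Finsupp.lapply u1 : ((X → ℕ) →₀ ℂ) →ₗ[ℂ] ℂ) (Finsupp.single u 1) *
        (Finsupp.lapply u2 : ((X → ℕ) →₀ ℂ) →ₗ[ℂ] ℂ) (Finsupp.single u' 1)) := by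
    funext u u'
    simp [Finsupp.lapply_apply, Finsupp.single_apply]
  rw [hF] at hd
  refine exists_intertwiner_sum t3 ⟨polytabloid (t1.trans h0), polytabloid_mem _⟩
    ⟨polytabloid (t2.trans h0), polytabloid_mem _⟩ (Finsupp.lapply u1) (Finsupp.lapply u2) ?_
  intro hz
  apply hd
  have hr := sum_regroup t3 (fun g => psiP (colOf t1) (rowOf t1) (colOf t2) (rowOf t2)
    (fun u u' => (Finsupp.lapply u1 : ((X → ℕ) →₀ ℂ) →ₗ[ℂ] ℂ) (Finsupp.single u 1) *
        (Finsupp.lapply u2 : ((X → ℕ) →₀ ℂ) →ₗ[ℂ] ℂ) (Finsupp.single u' 1)) (g * h0))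
  beta_reduce at hr
  unfold PP
  rw [← hr, ← hz]
  refine Finset.sum_congr rfl (fun g _ => ?_)
  rw [psiP_eq_poly, map_mul, Module.End.mul_apply, Module.End.mul_apply,
    labRep_polytabloid t1 h0, labRep_polytabloid t2 h0]

def posA (m : ℕ) (c : ℕ × ℕ) : ℕ × ℕ := (m - 1 - c.1 - c.2, c.2)

noncomputable def posAEquiv (m : ℕ) :
    {c : ℕ × ℕ // c ∈ (staircase m).cells} ≃ {c : ℕ × ℕ // c ∈ (staircase m).cells} :=
  Equiv.ofBijective
    (fun c => ⟨posA m c.1, mem_cells_stair.mpr (by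
      have := mem_cells_stair.mp c.2
      simp only [posA]
      omega)⟩)
    (Finite.injective_iff_bijective.mp (by
      intro c c' h
      apply Subtype.ext
      have h1 := congrArg Subtype.val h
      have h2 := mem_cells_stair.mp c.2
      have h3 := mem_cells_stair.mp c'.2
      simp only [posA, Prod.mk.injEq] at h1
      apply Prod.ext <;> omega))

/-- [K3] column flipped staircase tableau: the cell (i,j) carries e (m-1-i-j, j).  (compare posBEquiv / tabB in MixDefs.lean) -/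
theorem exists_tabA {m : ℕ} (e : Tableau (staircase m) X) :
    ∃ tA : Tableau (staircase m) X, rowOf tA = lev e ∧ colOf tA = colOf e :=
  ⟨(posAEquiv m).symm.trans e, rfl, rfl⟩

/-- [K3] `rowOf_tabB`, `colOf_tabB`, posB with b = 0. -/
theorem tabB_zero {m : ℕ} (e : Tableau (staircase m) X) :
    rowOf (tabB e 0) = lev e ∧ colOf (tabB e 0) = rowOf e := by
  constructor
  · funext x
    rw [rowOf_tabB]
    simp [posB, lev]
  · funext x
    rw [colOf_tabB]
    simp [posB]

/-- [K4] X = Fin n, e = Finset.equivFinOfCardEq (card_stair m); `QQ_to_PP`, `intertwiner_of_PP` with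
t1 = tA, t2 = tabB e 0, then `kron_pos_of_intertwiner`. -/
theorem good_kron (m : ℕ) (nu : YoungDiagram) (h : StairGood m nu) :
    0 < kron (m * (m + 1) / 2) (staircase m) (staircase m) nu := by
  let e : Tableau (staircase m) (Fin (m * (m + 1) / 2)) :=
    Finset.equivFinOfCardEq (card_stair m)
  obtain ⟨t3, f, hQ⟩ := h (Fin (m * (m + 1) / 2)) e
  obtain ⟨h0, f', hP⟩ := QQ_to_PP _ _ _ _ _ _ f hQ
  obtain ⟨tA, hA1, hA2⟩ := exists_tabA e
  obtain ⟨hB1, hB2⟩ := tabB_zero e
  apply kron_pos_of_intertwiner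
  apply intertwiner_of_PP tA (tabB e 0) t3 f' h0
  rw [hA1, hA2, hB1, hB2]
  exact hP

end Vale.Agent.P197
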