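import Vale.Agent.P197.Sx.Kron
import Vale.Agent.P197.Filling

/-! Seeds: shapes dominated by rho_m, from the A1 development (MixMain.lean) with b = 0.
See notes/P197_saxl.md section 4. -/

namespace Vale.Agent.P197

open Equiv

variable {X : Type*} [Fintype X] [DecidableEq X]

/-- [G1] changing the base labeling inside its fixG cA orbit only changes the sign (reindex q -> q * q0). -/
theorem psiP_relabelA (cA a cB b : X → ℕ) (f : (X → ℕ) → (X → ℕ) → ℂ) (g q0 : Perm X)
    (hq0 : q0 ∈ fixG cA) :
    psiP cA (act q0 a) cB b f g = sg q0 * psiP cA a cB b f g := by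
  unfold psiP
  rw [Finset.mul_sum]
  refine Finset.sum_bij (fun q _ => q * q0) ?_ ?_ ?_ ?_
  · intro q hq
    exact mul_mem_fixG hq hq0
  · intro q1 _ q2 _ h
    exact mul_right_cancel h
  · intro q hq
    exact ⟨q * q0⁻¹, mul_mem_fixG hq (inv_mem_fixG hq0), by group⟩
  · intro q _
    rw [Finset.mul_sum]
    refine Finset.sum_congr rfl (fun p _ => ?_)
    rw [← act_mul, mul_assoc g q q0, sg_mul]
    have := sg_mul_self q0
    linear_combination (-(sg q * sg p * f (act (g * (q * q0)) a) (act (g * p) b))) * this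

/-- [G2] lev e = act q0 (rowOf e) for the column flip q0 (x at (i,j) goes to the element at (m-1-i-j, j)).
E.g. q0 = e.symm.trans tA with tA from `exists_tabA`, or its inverse. -/
theorem exists_flip {m : ℕ} (e : Tableau (staircase m) X) :
    ∃ q0 ∈ fixG (colOf e), lev e = act q0 (rowOf e) := by
  obtain ⟨tA, h1, h2⟩ := exists_tabA e
  refine ⟨e.symm.trans tA, ?_, ?_⟩
  · rw [mem_fixG]
    intro x
    have h3 : colOf e ((e.symm.trans tA) x) = colOf tA ((e.symm.trans tA) x) := by rw [h2]
    rw [h3]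
    simp [colOf]
  · rw [← h1]
    funext x
    simp [act, rowOf, Equiv.Perm.inv_def]

/-- [G3] p in colGroup t acts on the polytabloid of t by its sign (`labRep_polytabloid` is the general translate;
reindex q -> p * q in the definition of polytabloid). -/
theorem labRep_colGroup {mu : YoungDiagram} (t : Tableau mu X) (p : Perm X) (hp : p ∈ colGroup t) :
    labRep X p (polytabloid t) = sg p • polytabloid t := by
  unfold polytabloid
  rw [map_sum, Finset.smul_sum]
  rw [← fixG_colOf] at hp ⊢
  refine Finset.sum_bij (fun q _ => p * q) ?_ ?_ ?_ ?_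
  · intro q hq
    exact mul_mem_fixG hp hq
  · intro q1 _ q2 _ h
    exact mul_left_cancel h
  · intro q hq
    exact ⟨p⁻¹ * q, mul_mem_fixG (inv_mem_fixG hp) hq, by group⟩
  · intro q _
    rw [map_smul, labRep_single, ← act_mul, smul_smul]
    congr 1
    have h1 := sg_mul_self p
    have h2 := sg_mul p q
    unfold sg at h1 h2 ⊢
    rw [h2]
    linear_combination (-(((Perm.sign q : ℤ) : ℂ))) * h1

/-- [G4] Copy the second half of the proof of `mix_intertwiner` (MixMain.lean) with b = 0 (hcc is vacuous): it shows that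
the summand equals c * n g with c = ell1 e 0 (zvec e 0) nonzero (`psi1_one_ne`), n g natural numbers, n 1 positive. -/
theorem mix_sum_ne {m : ℕ} (e : Tableau (staircase m) X) {mu : YoungDiagram} (t3 : Tableau mu X)
    (hrw : ∀ x y, rowOf t3 x = rowOf t3 y → colOf t3 x < colOf t3 y → rowOf e y ≤ rowOf e x)
    (hrr : ∀ x y, rowOf t3 x = rowOf t3 y → rowOf e x = rowOf e y → x = y) :
    ∑ g : Perm X, polytabloid t3 (act g (rowOf t3)) *
      (ell1 e 0 (labRep X g (zvec e 0)) *
        (labRep X g (polytabloid (tabB e 0))) (rowOf (tabB e 0))) ≠ 0 := by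
  classical
  have hcc : ∀ x y, colOf t3 x = colOf t3 y → rowOf e x = rowOf e y → rowOf e x < 0 → x = y := by
    intro x y _ _ h
    exact absurd h (Nat.not_lt_zero _)
  have hrr' : ∀ x y, rowOf t3 x = rowOf t3 y → rowOf e x = rowOf e y → 0 ≤ rowOf e x → x = y :=
    fun x y h1 h2 _ => hrr x y h1 h2
  set n : Perm X → ℕ := (fun g => if (∀ x, rowOf e (g x) = rowOf e x) then
      ((colGroup t3).filter (fun q => act q (rowOf t3) = act g (rowOf t3))).card else 0) with hn
  have hn1 : 0 < n 1 := by
    have h0 : ∀ x : X, rowOf e ((1 : Equiv.Perm X) x) = rowOf e x := fun x => rfl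
    rw [hn]
    simp only
    rw [if_pos h0]
    apply Finset.card_pos.mpr
    exact ⟨1, Finset.mem_filter.mpr ⟨one_mem_colGroup t3, rfl⟩⟩
  have H : ∀ g : Perm X, polytabloid t3 (act g (rowOf t3)) *
      (ell1 e 0 (labRep X g (zvec e 0)) *
        (labRep X g (polytabloid (tabB e 0))) (rowOf (tabB e 0))) = ell1 e 0 (zvec e 0) * (n g : ℂ) := by
    intro g
    rw [hn]
    simp only
    rw [labRep_apply]
    by_cases hg : ∀ x, rowOf e (g x) = rowOf e x
    · rw [if_pos hg, polytabloid_apply, Finset.sum_mul, Finset.card_filter]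
      push_cast
      rw [Finset.mul_sum]
      refine Finset.sum_congr rfl (fun q hq => ?_)
      by_cases E : act q (rowOf t3) = act g (rowOf t3)
      · obtain ⟨h1, h2⟩ := mix_decomp e 0 t3 hrw hcc hrr' g q hg hq E
        rw [if_pos E, if_pos E, psi1_eq e 0 g q h1 h2 hg, psi2_eq e 0 g q h1 h2 hg]
        have : ((Equiv.Perm.sign q : ℤ)) * ((Equiv.Perm.sign q : ℤ)) = 1 := by
          rw [← Units.val_mul, Int.units_mul_self]
          rfl
        have h3 : (((Equiv.Perm.sign q : ℤ)) : ℂ) * (((Equiv.Perm.sign q : ℤ)) : ℂ) = 1 := by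
          exact_mod_cast this
        linear_combination (ell1 e 0 (zvec e 0)) * h3
      · rw [if_neg E, if_neg E]
        simp
    · rw [if_neg hg]
      have : ell1 e 0 (labRep X g (zvec e 0)) *
          polytabloid (tabB e 0) (act g⁻¹ (rowOf (tabB e 0))) = 0 := by
        by_contra hcon
        exact hg (mix_loc e 0 g (left_ne_zero_of_mul hcon) (right_ne_zero_of_mul hcon))
      rw [this]
      simp
  rw [Finset.sum_congr rfl (fun g _ => H g), ← Finset.mul_sum, ← Nat.cast_sum]
  intro h1
  rcases mul_eq_zero.mp h1 with h3 | h3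
  · exact psi1_one_ne e 0 h3
  · rw [Nat.cast_eq_zero, Finset.sum_eq_zero_iff] at h3
    have := h3 1 (Finset.mem_univ _)
    omega

/-- [G5] zvec e 0 = sum over p in rowLow e 0 of labRep X p (polytabloid e) (`labRep_polytabloid`), and for such p
polytabloid (tabB e 0) = sg p . labRep X p (polytabloid (tabB e 0)) (`labRep_colGroup`, `tabB_zero`, `sg_mul_self`).
So the sum of `mix_sum_ne` is  sum over p of sg p * sum over g of polytabloid t3 (..) * psiP .. F (g * p)  (`psiP_eq_poly`, map_mul)
= sum over p of sg p * PP (rowOf t3) (colOf t3) (colOf e) (rowOf e) (rowOf e) (lev e) F p   (`sum_regroup`, `tabB_zero`)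
with F u u' = ell1 e 0 (single u 1) * lapply (rowOf (tabB e 0)) (single u' 1).  Some p gives a nonzero PP.
Finally `exists_flip`, `psiP_relabelA` replace rowOf e by lev e. -/
theorem seed_PP {m : ℕ} (e : Tableau (staircase m) X) {mu : YoungDiagram} (t3 : Tableau mu X)
    (hrw : ∀ x y, rowOf t3 x = rowOf t3 y → colOf t3 x < colOf t3 y → rowOf e y ≤ rowOf e x)
    (hrr : ∀ x y, rowOf t3 x = rowOf t3 y → rowOf e x = rowOf e y → x = y) :
    ∃ (f : (X → ℕ) → (X → ℕ) → ℂ) (h0 : Perm X),
      PP (rowOf t3) (colOf t3) (colOf e) (lev e) (rowOf e) (lev e) f h0 ≠ 0 := by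
  classical
  have hne := mix_sum_ne e t3 hrw hrr
  obtain ⟨hB1, hB2⟩ := tabB_zero e
  set f1 : ((X → ℕ) →₀ ℂ) →ₗ[ℂ] ℂ := ell1 e 0 with hf1
  set f2 : ((X → ℕ) →₀ ℂ) →ₗ[ℂ] ℂ := Finsupp.lapply (rowOf (tabB e 0)) with hf2
  set F : (X → ℕ) → (X → ℕ) → ℂ :=
    fun u u' => f1 (Finsupp.single u 1) * f2 (Finsupp.single u' 1) with hF
  -- pointwise identity
  have hpt : ∀ g : Perm X,
      f1 (labRep X g (zvec e 0)) * (labRep X g (polytabloid (tabB e 0))) (rowOf (tabB e 0)) =
        ∑ p ∈ rowLow e 0, sg p *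
          psiP (colOf e) (rowOf e) (colOf (tabB e 0)) (rowOf (tabB e 0)) F (g * p) := by
    intro g
    have hz : zvec e 0 = ∑ p ∈ rowLow e 0, labRep X p (polytabloid e) := by
      unfold zvec
      refine Finset.sum_congr rfl (fun p _ => ?_)
      rw [labRep_polytabloid]
    rw [hz, map_sum, map_sum, Finset.sum_mul]
    refine Finset.sum_congr rfl (fun p hp => ?_)
    have hpc : p ∈ colGroup (tabB e 0) := by
      rw [← fixG_colOf, mem_fixG, hB2]
      intro x
      exact ((mem_rowLow e 0).mp hp x).1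
    have h1 : polytabloid (tabB e 0) = sg p • labRep X p (polytabloid (tabB e 0)) := by
      rw [labRep_colGroup _ p hpc, smul_smul, sg_mul_self, one_smul]
    rw [psiP_eq_poly e (tabB e 0) f1 f2 (g * p), map_mul, Module.End.mul_apply,
      Module.End.mul_apply]
    conv_lhs => rw [h1]
    rw [map_smul]
    have h2 : (sg p • labRep X g (labRep X p (polytabloid (tabB e 0)))) (rowOf (tabB e 0)) =
        sg p * f2 (labRep X g (labRep X p (polytabloid (tabB e 0)))) := by
      rw [hf2, Finsupp.lapply_apply, Finsupp.smul_apply, smul_eq_mul]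
    rw [h2]
    ring
  have hsum : ∑ g : Perm X, polytabloid t3 (act g (rowOf t3)) *
      (ell1 e 0 (labRep X g (zvec e 0)) *
        (labRep X g (polytabloid (tabB e 0))) (rowOf (tabB e 0))) =
      ∑ p ∈ rowLow e 0, sg p *
        PP (rowOf t3) (colOf t3) (colOf e) (rowOf e) (colOf (tabB e 0)) (rowOf (tabB e 0)) F p := by
    have : ∀ p : Perm X,
        PP (rowOf t3) (colOf t3) (colOf e) (rowOf e) (colOf (tabB e 0)) (rowOf (tabB e 0)) F p =
        ∑ g : Perm X, polytabloid t3 (act g (rowOf t3)) *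
          psiP (colOf e) (rowOf e) (colOf (tabB e 0)) (rowOf (tabB e 0)) F (g * p) := by
      intro p
      rw [sum_regroup t3 (fun g =>
        psiP (colOf e) (rowOf e) (colOf (tabB e 0)) (rowOf (tabB e 0)) F (g * p))]
      rfl
    simp_rw [this, Finset.mul_sum]
    rw [Finset.sum_comm]
    refine Finset.sum_congr rfl (fun g _ => ?_)
    rw [hpt g, Finset.mul_sum]
    refine Finset.sum_congr rfl (fun p _ => ?_)
    ring
  rw [hsum] at hne
  obtain ⟨p, _, hp⟩ := Finset.exists_ne_zero_of_sum_ne_zero hne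
  have hp' := right_ne_zero_of_mul hp
  rw [hB1, hB2] at hp'
  obtain ⟨q0, hq0, hlev⟩ := exists_flip e
  refine ⟨F, p, ?_⟩
  have hrel : PP (rowOf t3) (colOf t3) (colOf e) (lev e) (rowOf e) (lev e) F p =
      sg q0 * PP (rowOf t3) (colOf t3) (colOf e) (rowOf e) (rowOf e) (lev e) F p := by
    unfold PP
    rw [Finset.mul_sum]
    refine Finset.sum_congr rfl (fun q _ => ?_)
    rw [Finset.mul_sum]
    refine Finset.sum_congr rfl (fun r _ => ?_)
    have : psiP (colOf e) (lev e) (rowOf e) (lev e) F (q * r * p) =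
        sg q0 * psiP (colOf e) (rowOf e) (rowOf e) (lev e) F (q * r * p) := by
      conv_lhs => rw [show psiP (colOf e) (lev e) (rowOf e) (lev e) F (q * r * p) =
        psiP (colOf e) (act q0 (rowOf e)) (rowOf e) (lev e) F (q * r * p) from by rw [← hlev]]
      exact psiP_relabelA _ _ _ _ _ _ _ hq0
    rw [this]
    ring
  rw [hrel]
  exact mul_ne_zero (sg_ne_zero q0) hp'

/-- cell map used in `exists_seed_tableau`: reverse every row and transpose. -/
def flipCell (nu : YoungDiagram) :
    {c : ℕ × ℕ // c ∈ nu.cells} ≃ {c : ℕ × ℕ // c ∈ nu.transpose.cells} where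
  toFun c := ⟨(nu.rowLen c.1.1 - 1 - c.1.2, c.1.1), by
    have h : (c.1.1, c.1.2) ∈ nu := c.2
    rw [YoungDiagram.mem_iff_lt_rowLen] at h
    rw [YoungDiagram.mem_cells, YoungDiagram.mem_transpose]
    show (c.1.1, nu.rowLen c.1.1 - 1 - c.1.2) ∈ nu
    rw [YoungDiagram.mem_iff_lt_rowLen]
    omega⟩
  invFun c := ⟨(c.1.2, nu.rowLen c.1.2 - 1 - c.1.1), by
    have h : (c.1.2, c.1.1) ∈ nu := by
      have := c.2
      rw [YoungDiagram.mem_cells, YoungDiagram.mem_transpose] at this
      exact this
    rw [YoungDiagram.mem_iff_lt_rowLen] at h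
    rw [YoungDiagram.mem_cells, YoungDiagram.mem_iff_lt_rowLen]
    omega⟩
  left_inv c := by
    have h : (c.1.1, c.1.2) ∈ nu := c.2
    rw [YoungDiagram.mem_iff_lt_rowLen] at h
    apply Subtype.ext
    apply Prod.ext
    · rfl
    · show nu.rowLen c.1.1 - 1 - (nu.rowLen c.1.1 - 1 - c.1.2) = c.1.2
      omega
  right_inv c := by
    have h : (c.1.2, c.1.1) ∈ nu := by
      have := c.2
      rw [YoungDiagram.mem_cells, YoungDiagram.mem_transpose] at this
      exact this
    rw [YoungDiagram.mem_iff_lt_rowLen] at h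
    apply Subtype.ext
    apply Prod.ext
    · show nu.rowLen c.1.2 - 1 - (nu.rowLen c.1.2 - 1 - c.1.1) = c.1.1
      omega
    · rfl

theorem row_card_all {m : ℕ} (e : Tableau (staircase m) X) (k : ℕ) :
    (Finset.univ.filter (fun x : X => rowOf e x = k)).card = m - k := by
  by_cases hk : k < m
  · exact row_card e hk
  · have : (Finset.univ.filter (fun x : X => rowOf e x = k)) = ∅ := by
      rw [Finset.filter_eq_empty_iff]
      intro x _ hx
      have := stair_lt e x
      omega
    rw [this, Finset.card_empty]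
    omega

/-- [G6] `exists_tableau_of_dominance` (Filling.lean) for nu.transpose and v = rowOf e (fibres have m - k elements: `row_card`,
`stair_lt`; card X = `card_stair`) gives t' of shape nu.transpose whose columns are strictly increasing in rowOf e.
t3 = (cell map (i,j) -> (nu.rowLen i - 1 - j, i) from nu to nu.transpose).trans t', so rowOf t3 = colOf t' and
colOf t3 x = nu.rowLen (colOf t' x) - 1 - rowOf t' x: rows of t3 are strictly decreasing in rowOf e. -/
theorem exists_seed_tableau {m : ℕ} (e : Tableau (staircase m) X) (nu : YoungDiagram)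
    (hcard : nu.card = m * (m + 1) / 2)
    (hdom : ∀ k, ∑ j ∈ Finset.range k, (m - j) ≤ ∑ j ∈ Finset.range k, nu.colLen j) :
    ∃ t3 : Tableau nu X,
      (∀ x y, rowOf t3 x = rowOf t3 y → colOf t3 x < colOf t3 y → rowOf e y ≤ rowOf e x) ∧
      (∀ x y, rowOf t3 x = rowOf t3 y → rowOf e x = rowOf e y → x = y) := by
  have hX : Fintype.card X = m * (m + 1) / 2 := by
    rw [← card_stair m, ← Fintype.card_congr e, Fintype.card_coe]
  have hT : nu.transpose.card = Fintype.card X := by
    rw [hX, ← hcard]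
    have := Fintype.card_congr (flipCell nu)
    rw [Fintype.card_coe, Fintype.card_coe] at this
    exact this.symm
  obtain ⟨t', ht'⟩ := exists_tableau_of_dominance nu.transpose (rowOf e) hT
    (by
      intro a b hab
      simp only [row_card_all]
      omega)
    (by
      intro k
      simp only [row_card_all, YoungDiagram.rowLen_transpose]
      exact hdom k)
  have hr : ∀ x, rowOf ((flipCell nu).trans t') x = colOf t' x := fun x => rfl
  have hc : ∀ x, colOf ((flipCell nu).trans t') x =
      nu.rowLen (colOf t' x) - 1 - rowOf t' x := fun x => rfl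
  refine ⟨(flipCell nu).trans t', ?_, ?_⟩
  · intro x y h1 h2
    rw [hr, hr] at h1
    rw [hc, hc, h1] at h2
    have := ht' y x h1.symm (by omega)
    omega
  · intro x y h1 h2
    rw [hr, hr] at h1
    rcases lt_trichotomy (rowOf t' x) (rowOf t' y) with h3 | h3 | h3
    · have := ht' x y h1 h3
      omega
    · exact cell_ext t' h3 h1
    · have := ht' y x h1.symm h3
      omega

/-- `exists_seed_tableau`, `seed_PP`, `PP_to_QQ`, and replace t3 by t3.trans h1⁻¹. -/
theorem seed_good (m : ℕ) (nu : YoungDiagram) (hcard : nu.card = m * (m + 1) / 2)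
    (hdom : ∀ k, ∑ j ∈ Finset.range k, (m - j) ≤ ∑ j ∈ Finset.range k, nu.colLen j) :
    StairGood m nu := by
  intro X _ _ e
  obtain ⟨t3, hrw, hrr⟩ := exists_seed_tableau e nu hcard hdom
  obtain ⟨f, h0, hPP⟩ := seed_PP e t3 hrw hrr
  obtain ⟨h1, f', hQQ⟩ := PP_to_QQ _ _ _ _ _ _ f h0 hPP
  refine ⟨t3.trans h1⁻¹, f', ?_⟩
  have e1 : rowOf (t3.trans h1⁻¹) = fun x => rowOf t3 (h1 x) := by
    rw [rowOf_trans]
    funext x
    simp [act]
  have e2 : colOf (t3.trans h1⁻¹) = fun x => colOf t3 (h1 x) := by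
    rw [colOf_trans]
    funext x
    simp [act]
  rw [e1, e2]
  exact hQQ

end Vale.Agent.P197
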