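import Vale.Agent.P197.Sx.Band
import Vale.Agent.P197.Sx.Kron
import Vale.Agent.P197.Sx.SeedGood
import Vale.Agent.P197.Sx.Cover

namespace Vale.Agent.P197

theorem tri_succ (m : ℕ) : (m + 1) * (m + 1 + 1) / 2 = m * (m + 1) / 2 + (m + 1) := by
  have h : (m + 1) * (m + 1 + 1) = m * (m + 1) + 2 * (m + 1) := by ring
  rw [h, Nat.add_mul_div_left _ _ (by norm_num)]

theorem tri_succ2 (m : ℕ) : (m + 2) * (m + 2 + 1) / 2 = m * (m + 1) / 2 + (2 * m + 3) := by
  have h : (m + 2) * (m + 2 + 1) = m * (m + 1) + 2 * (2 * m + 3) := by ring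
  rw [h, Nat.add_mul_div_left _ _ (by norm_num)]

/-- [F1] m = 0: nu is empty (card 0), all rowLen vanish.  m = 1: rowLen 0 = 0, so all rowLen vanish (rowLen_anti).
m >= 2: `dominated_of_thin`. -/
theorem final_dom (m : ℕ) (nu : YoungDiagram) (hcard : nu.card = m * (m + 1) / 2)
    (h1 : ¬ (1 ≤ m ∧ m ≤ nu.rowLen 0))
    (h2 : ¬ (2 ≤ m ∧ 2 * m ≤ ∑ i ∈ Finset.range 4, nu.rowLen i + 1)) (r : ℕ) :
    ∑ i ∈ Finset.range r, nu.rowLen i ≤ ∑ i ∈ Finset.range r, (m - i) := by
  by_cases hm : 2 ≤ m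
  · exact dominated_of_thin m nu hcard (by omega) (by omega) r
  · have h0 : nu.rowLen 0 = 0 := by
      rcases Nat.eq_zero_or_pos m with rfl | hpos
      · have h3 : nu.rowLen 0 ≤ nu.card := by
          rw [YoungDiagram.rowLen_eq_card]
          exact Finset.card_le_card (Finset.filter_subset _ _)
        rw [hcard] at h3
        simpa using h3
      · omega
    have hall : ∀ i, nu.rowLen i = 0 := by
      intro i
      have := nu.rowLen_anti 0 i (Nat.zero_le i)
      omega
    simp [hall]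

theorem saxl_good : ∀ (m : ℕ) (nu : YoungDiagram), nu.card = m * (m + 1) / 2 → StairGood m nu := by
  intro m
  induction m using Nat.strong_induction_on with
  | _ m ih =>
    intro nu hcard
    by_cases h1 : 1 ≤ m ∧ m ≤ nu.rowLen 0
    · obtain ⟨m', rfl⟩ : ∃ m', m = m' + 1 := ⟨m - 1, by omega⟩
      obtain ⟨tau, hle, hc, hcol⟩ := exists_strip nu 1 (m' + 1) (by simpa using h1.2)
      have hct : tau.card = m' * (m' + 1) / 2 := by
        rw [tri_succ] at hcard
        omega
      exact step_lemma m' 1 tau nu hle hcard (ih m' (by omega) tau hct)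
        (band_good1 m' tau nu hle hcol hc)
    · by_cases h2 : 2 ≤ m ∧ 2 * m ≤ ∑ i ∈ Finset.range 4, nu.rowLen i + 1
      · obtain ⟨m', rfl⟩ : ∃ m', m = m' + 2 := ⟨m - 2, by omega⟩
        obtain ⟨tau, hle, hc, hcol⟩ := exists_strip nu 4 (2 * m' + 3) (by omega)
        have hct : tau.card = m' * (m' + 1) / 2 := by
          rw [tri_succ2] at hcard
          omega
        exact step_lemma m' 2 tau nu hle hcard (ih m' (by omega) tau hct)
          (band_good2 m' tau nu hle hcol hc)
      · have hdom : ∀ r, ∑ i ∈ Finset.range r, nu.rowLen i ≤ ∑ i ∈ Finset.range r, (m - i) :=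
          final_dom m nu hcard h1 h2
        exact seed_good m nu hcard (dominated_conj m nu hcard hdom)

theorem saxl (m : ℕ) (nu : YoungDiagram) (hcard : nu.card = m * (m + 1) / 2) :
    0 < kron (m * (m + 1) / 2) (staircase m) (staircase m) nu :=
  good_kron m nu (saxl_good m nu hcard)

end Vale.Agent.P197
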