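import Vale.Agent.P197.Sx.Basic

/-! The chain form Pf and its local (one block of size two) behaviour. -/

namespace Vale.Agent.P197

open Equiv

variable {Y : Type*} [Fintype Y] [DecidableEq Y]

/-- pairing of e(cA,a) (x) e(cB,b) with the product functional given by the letters zeta y. -/
noncomputable def Pf (cA a cB b : Y → ℕ) (ζ : Y → ℕ → ℕ → ℂ) : ℂ :=
  ∑ q ∈ fixG cA, ∑ p ∈ fixG cB, sg q * sg p * ∏ y, ζ y (a (q⁻¹ y)) (b (p⁻¹ y))

theorem Pf_symm (cA a cB b : Y → ℕ) (ζ : Y → ℕ → ℕ → ℂ) :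
    Pf cA a cB b ζ = Pf cB b cA a (fun y α β => ζ y β α) := by
  unfold Pf
  rw [Finset.sum_comm]
  refine Finset.sum_congr rfl (fun p _ => Finset.sum_congr rfl (fun q _ => ?_))
  ring

theorem lk_swap_mem_fixG {c : Y → ℕ} {x y : Y} (h : c x = c y) : swap x y ∈ fixG c := by
  rw [mem_fixG]
  intro z
  by_cases hzx : z = x
  · subst hzx; rw [swap_apply_left, h]
  by_cases hzy : z = y
  · subst hzy; rw [swap_apply_right, h]
  rw [swap_apply_of_ne_of_ne hzx hzy]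

theorem lk_sum_fixG_mul_left {c : Y → ℕ} {s : Perm Y} (hs : s ∈ fixG c) (F : Perm Y → ℂ) :
    ∑ p ∈ fixG c, F (s * p) = ∑ p ∈ fixG c, F p := by
  refine Finset.sum_bij (fun p _ => s * p) (fun p hp => mul_mem_fixG hs hp)
    (fun a _ b _ h => mul_left_cancel h)
    (fun b hb => ⟨s⁻¹ * b, mul_mem_fixG (inv_mem_fixG hs) hb, by simp⟩) (fun _ _ => rfl)

theorem lk_sg_swap {x y : Y} (h : x ≠ y) : sg (swap x y) = -1 := by
  simp [sg, Perm.sign_swap h]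

/-- splitting off two factors of a product -/
theorem lk_prod_split_two (y y' : Y) (hne : y ≠ y') (F : Y → ℂ) :
    ∏ x, F x = F y * F y' * ∏ x ∈ (Finset.univ.erase y).erase y', F x := by
  rw [← Finset.mul_prod_erase Finset.univ F (Finset.mem_univ y),
    ← Finset.mul_prod_erase (Finset.univ.erase y) F
      (Finset.mem_erase.2 ⟨hne.symm, Finset.mem_univ y'⟩), mul_assoc]

theorem lk_inner (cB b : Y → ℕ) (y y' : Y) (hne : y ≠ y')
    (hblock : ∀ x, cB x = cB y ↔ (x = y ∨ x = y')) (u : Y → ℕ) (hu : ∀ x, u x < 2)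
    (ζ ζ' : Y → ℕ → ℕ → ℂ) (hout : ∀ x, x ≠ y → x ≠ y' → ζ' x = ζ x) (c : ℂ)
    (hlink : ∀ α α', α < 2 → α' < 2 →
      ζ' y α (b y) * ζ' y' α' (b y') - ζ' y α (b y') * ζ' y' α' (b y) =
        c * (ζ y α (b y) * ζ y' α' (b y') - ζ y α (b y') * ζ y' α' (b y))) :
    ∑ p ∈ fixG cB, sg p * ∏ x, ζ' x (u x) (b (p⁻¹ x)) =
      c * ∑ p ∈ fixG cB, sg p * ∏ x, ζ x (u x) (b (p⁻¹ x)) := by
  have hs : swap y y' ∈ fixG cB := lk_swap_mem_fixG (((hblock y').2 (Or.inr rfl)).symm)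
  -- doubling
  have dbl : ∀ η : Y → ℕ → ℕ → ℂ, 2 * ∑ p ∈ fixG cB, sg p * ∏ x, η x (u x) (b (p⁻¹ x)) =
      ∑ p ∈ fixG cB, sg p * (∏ x, η x (u x) (b (p⁻¹ x)) -
        ∏ x, η x (u x) (b ((swap y y' * p)⁻¹ x))) := by
    intro η
    have h1 := lk_sum_fixG_mul_left hs (fun p => sg p * ∏ x, η x (u x) (b (p⁻¹ x)))
    simp only [sg_mul, lk_sg_swap hne] at h1
    rw [two_mul]
    nth_rewrite 2 [← h1]
    rw [← Finset.sum_add_distrib]
    refine Finset.sum_congr rfl (fun p _ => ?_)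
    ring
  have key : ∀ p ∈ fixG cB, (∏ x, ζ' x (u x) (b (p⁻¹ x)) -
        ∏ x, ζ' x (u x) (b ((swap y y' * p)⁻¹ x))) =
      c * (∏ x, ζ x (u x) (b (p⁻¹ x)) - ∏ x, ζ x (u x) (b ((swap y y' * p)⁻¹ x))) := by
    intro p hp
    have hinv : ∀ x, (swap y y' * p)⁻¹ x = p⁻¹ (swap y y' x) := by
      intro x
      simp [mul_inv_rev]
    have hpi := inv_mem_fixG hp
    rw [mem_fixG] at hpi
    have hrest : ∀ η : Y → ℕ → ℕ → ℂ,
        ∏ x ∈ (Finset.univ.erase y).erase y', η x (u x) (b ((swap y y' * p)⁻¹ x)) =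
        ∏ x ∈ (Finset.univ.erase y).erase y', η x (u x) (b (p⁻¹ x)) := by
      intro η
      refine Finset.prod_congr rfl (fun x hx => ?_)
      have h1 : x ≠ y' := (Finset.mem_erase.1 hx).1
      have h2 : x ≠ y := (Finset.mem_erase.1 (Finset.mem_erase.1 hx).2).1
      rw [hinv, swap_apply_of_ne_of_ne h2 h1]
    have hrest2 : ∏ x ∈ (Finset.univ.erase y).erase y', ζ' x (u x) (b (p⁻¹ x)) =
        ∏ x ∈ (Finset.univ.erase y).erase y', ζ x (u x) (b (p⁻¹ x)) := by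
      refine Finset.prod_congr rfl (fun x hx => ?_)
      have h1 : x ≠ y' := (Finset.mem_erase.1 hx).1
      have h2 : x ≠ y := (Finset.mem_erase.1 (Finset.mem_erase.1 hx).2).1
      rw [hout x h2 h1]
    rw [lk_prod_split_two y y' hne (fun x => ζ' x (u x) (b (p⁻¹ x))),
      lk_prod_split_two y y' hne (fun x => ζ' x (u x) (b ((swap y y' * p)⁻¹ x))),
      lk_prod_split_two y y' hne (fun x => ζ x (u x) (b (p⁻¹ x))),
      lk_prod_split_two y y' hne (fun x => ζ x (u x) (b ((swap y y' * p)⁻¹ x))),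
      hrest, hrest, hrest2]
    simp only [hinv, swap_apply_left, swap_apply_right]
    have hl := hlink (u y) (u y') (hu y) (hu y')
    have hy1 : p⁻¹ y = y ∨ p⁻¹ y = y' := (hblock _).1 (hpi y)
    have hy2 : p⁻¹ y' = y ∨ p⁻¹ y' = y' :=
      (hblock _).1 ((hpi y').trans ((hblock y').2 (Or.inr rfl)))
    have hinj : p⁻¹ y ≠ p⁻¹ y' := fun h => hne (p⁻¹.injective h)
    rcases hy1 with h1 | h1 <;> rcases hy2 with h2 | h2
    · exact absurd (h1.trans h2.symm) hinj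
    · rw [h1, h2]
      linear_combination (∏ x ∈ (Finset.univ.erase y).erase y', ζ x (u x) (b (p⁻¹ x))) * hl
    · rw [h1, h2]
      linear_combination (-∏ x ∈ (Finset.univ.erase y).erase y', ζ x (u x) (b (p⁻¹ x))) * hl
    · exact absurd (h1.trans h2.symm) hinj
  have h2 : (2 : ℂ) * ∑ p ∈ fixG cB, sg p * ∏ x, ζ' x (u x) (b (p⁻¹ x)) =
      2 * (c * ∑ p ∈ fixG cB, sg p * ∏ x, ζ x (u x) (b (p⁻¹ x))) := by
    rw [dbl ζ', mul_left_comm, dbl ζ, Finset.mul_sum]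
    refine Finset.sum_congr rfl (fun p hp => ?_)
    rw [key p hp]
    ring
  exact mul_left_cancel₀ two_ne_zero h2

/-- [L1] Local lemma at a cB-block {y, y'}.  fixG cB = G0 + G0 * swap y y' with G0 = {p | p y = y}
(then p y' = y').  For p in G0 the terms of p and p * swap y y' add up to
sg p * (product over the other x) * (zeta y al (b y) * zeta y' al' (b y') - zeta y al (b y') * zeta y' al' (b y))
with al = a (q⁻¹ y), al' = a (q⁻¹ y'). -/
theorem Pf_linkB (cA a cB b : Y → ℕ) (y y' : Y) (hne : y ≠ y')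
    (hblock : ∀ x, cB x = cB y ↔ (x = y ∨ x = y')) (ha2 : ∀ x, a x < 2)
    (ζ ζ' : Y → ℕ → ℕ → ℂ) (hout : ∀ x, x ≠ y → x ≠ y' → ζ' x = ζ x) (c : ℂ)
    (hlink : ∀ α α', α < 2 → α' < 2 →
      ζ' y α (b y) * ζ' y' α' (b y') - ζ' y α (b y') * ζ' y' α' (b y) =
        c * (ζ y α (b y) * ζ y' α' (b y') - ζ y α (b y') * ζ y' α' (b y))) :
    Pf cA a cB b ζ' = c * Pf cA a cB b ζ := by
  unfold Pf
  rw [Finset.mul_sum]
  refine Finset.sum_congr rfl (fun q _ => ?_)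
  have h := lk_inner cB b y y' hne hblock (fun x => a (q⁻¹ x)) (fun x => ha2 _) ζ ζ' hout c hlink
  simp only [mul_assoc]
  rw [← Finset.mul_sum, ← Finset.mul_sum, h]
  ring

/-- the same at a cA-block; follows from `Pf_linkB` and `Pf_symm`. -/
theorem Pf_linkA (cA a cB b : Y → ℕ) (y y' : Y) (hne : y ≠ y')
    (hblock : ∀ x, cA x = cA y ↔ (x = y ∨ x = y')) (hb2 : ∀ x, b x < 2)
    (ζ ζ' : Y → ℕ → ℕ → ℂ) (hout : ∀ x, x ≠ y → x ≠ y' → ζ' x = ζ x) (c : ℂ)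
    (hlink : ∀ β β', β < 2 → β' < 2 →
      ζ' y (a y) β * ζ' y' (a y') β' - ζ' y (a y') β * ζ' y' (a y) β' =
        c * (ζ y (a y) β * ζ y' (a y') β' - ζ y (a y') β * ζ y' (a y) β')) :
    Pf cA a cB b ζ' = c * Pf cA a cB b ζ := by
  rw [Pf_symm cA a cB b ζ', Pf_symm cA a cB b ζ]
  refine Pf_linkB cB b cA a y y' hne hblock hb2 _ _ ?_ c ?_
  · intro x h1 h2
    funext α β
    rw [hout x h1 h2]
  · intro β β' h1 h2
    exact hlink β β' h1 h2

/-- chain structure: positions idx = 0 .. 2M; cA-blocks {0},{1,2},{3,4},..; cB-blocks {0,1},{2,3},..,{2M};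
labels a = b = idx mod 2. -/
structure IsChain (M : ℕ) (idx cA a cB b : Y → ℕ) : Prop where
  inj : Function.Injective idx
  lt : ∀ y, idx y < 2 * M + 1
  surj : ∀ n, n < 2 * M + 1 → ∃ y, idx y = n
  hA : ∀ y y', cA y = cA y' ↔ (idx y + 1) / 2 = (idx y' + 1) / 2
  hB : ∀ y y', cB y = cB y' ↔ idx y / 2 = idx y' / 2
  ha : ∀ y, a y = idx y % 2
  hb : ∀ y, b y = idx y % 2

/-- the four letters: an orthogonal basis of (2x2 matrices, det), all of whose relevant corner entries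
are nonzero.  Z0 = [[7,2],[3,1]], Z1 = [[-5,-2],[-3,-1]], Z2 = [[5,1],[1,0]], Z3 = [[1,1],[-1,0]]. -/
def letZ : ℕ → ℕ → ℕ → ℤ
  | 0, 0, 0 => 7 | 0, 0, 1 => 2 | 0, 1, 0 => 3 | 0, 1, 1 => 1
  | 1, 0, 0 => -5 | 1, 0, 1 => -2 | 1, 1, 0 => -3 | 1, 1, 1 => -1
  | 2, 0, 0 => 5 | 2, 0, 1 => 1 | 2, 1, 0 => 1 | 2, 1, 1 => 0
  | 3, 0, 0 => 1 | 3, 0, 1 => 1 | 3, 1, 0 => -1 | 3, 1, 1 => 0
  | _, _, _ => 0

noncomputable def letL (i α β : ℕ) : ℂ := (letZ i α β : ℂ)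

end Vale.Agent.P197
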