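import Vale.Agent.P197.Sx.Basic

/-! Threshold lemma and its two uses (delta lemma for the staircase, bottom lemma for t3). -/

namespace Vale.Agent.P197

open Equiv

variable {X : Type*} [Fintype X] [DecidableEq X]

/-- [T1] B = {psi < theta} is the unique set of its size with minimal psi-sum.
Proof: S = g B, |S \ B| = |B \ S| = t; sum over S \ B is at least theta t, sum over B \ S is
less than theta t unless t = 0.  So g B = B; a bijection mapping the finite set B into B also
maps the complement into the complement. -/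
theorem thr_unique (ψ : X → ℤ) (θ : ℤ) (g : Perm X)
    (hsum : ∑ x ∈ Finset.univ.filter (fun x => ψ x < θ), ψ (g x) ≤
      ∑ x ∈ Finset.univ.filter (fun x => ψ x < θ), ψ x) :
    ∀ x, ψ (g x) < θ ↔ ψ x < θ := by
  classical
  have hre : ∀ F : X → ℤ, ∑ x, F x = ∑ y, F (g⁻¹ y) := fun F => (Equiv.sum_comp g⁻¹ F).symm
  have e2 : ∀ G : X → ℤ, ∑ x, (if ψ x < θ then G x - θ else 0) =
      ∑ x, (if ψ x < θ then G x else 0) - ∑ x, (if ψ x < θ then θ else 0) := by
    intro G
    rw [← Finset.sum_sub_distrib]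
    refine Finset.sum_congr rfl (fun x _ => ?_)
    split_ifs <;> ring
  have h1 : ∑ y, ((if ψ (g⁻¹ y) < θ then ψ y - θ else 0) -
      (if ψ y < θ then ψ y - θ else 0)) ≤ 0 := by
    rw [Finset.sum_sub_distrib]
    have e1 : ∑ y, (if ψ (g⁻¹ y) < θ then ψ y - θ else 0) =
        ∑ x, (if ψ x < θ then ψ (g x) - θ else 0) := by
      rw [hre (fun x => if ψ x < θ then ψ (g x) - θ else 0)]
      simp
    rw [e1]
    rw [Finset.sum_filter, Finset.sum_filter] at hsum
    rw [e2, e2]
    linarith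
  have h2 : ∀ y ∈ (Finset.univ : Finset X), 0 ≤ ((if ψ (g⁻¹ y) < θ then ψ y - θ else 0) -
      (if ψ y < θ then ψ y - θ else 0)) := by
    intro y _
    split_ifs <;> omega
  have h3 := (Finset.sum_eq_zero_iff_of_nonneg h2).mp (le_antisymm h1 (Finset.sum_nonneg h2))
  have key : ∀ y, ψ y < θ → ψ (g⁻¹ y) < θ := by
    intro y hy
    by_contra hn
    have := h3 y (Finset.mem_univ y)
    rw [if_neg hn, if_pos hy] at this
    omega
  have hsub : (Finset.univ.filter (fun x => ψ x < θ)).map (g⁻¹ : Perm X).toEmbedding ⊆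
      Finset.univ.filter (fun x => ψ x < θ) := by
    intro x hx
    rw [Finset.mem_map] at hx
    obtain ⟨y, hy, rfl⟩ := hx
    rw [Finset.mem_filter] at hy ⊢
    exact ⟨Finset.mem_univ _, key y hy.2⟩
  have heq := Finset.eq_of_subset_of_card_le hsub (by rw [Finset.card_map])
  intro x
  constructor
  · intro hx
    have := key (g x) hx
    simpa using this
  · intro hx
    have hx' : x ∈ Finset.univ.filter (fun x => ψ x < θ) := by
      rw [Finset.mem_filter]
      exact ⟨Finset.mem_univ _, hx⟩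
    rw [← heq, Finset.mem_map] at hx'
    obtain ⟨y, hy, hyx⟩ := hx'
    rw [Finset.mem_filter] at hy
    have : g x = y := by
      rw [← hyx]
      simp
    rw [this]
    exact hy.2

/-- [T2] Delta lemma.  B = {lev < k}.  q B = p B =: S.  q keeps columns, p keeps rows, so
sum over B of lev (q x) = sum over B of (m - 1 - row (q x) - col x), and
sum over B of row (q x) = sum over S of row = sum over B of row (p x) = sum over B of row x.
Hence the lev-sums agree and `thr_unique` applies to q; then p = q * (q⁻¹ * p). -/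
theorem delta_stair {m : ℕ} (e : Tableau (staircase m) X) (k : ℕ) (q p : Perm X)
    (hq : q ∈ fixG (colOf e)) (hp : p ∈ fixG (rowOf e))
    (h : ∀ x, lev e ((q⁻¹ * p) x) < k ↔ lev e x < k) :
    (∀ x, lev e (q x) < k ↔ lev e x < k) ∧ (∀ x, lev e (p x) < k ↔ lev e x < k) := by
  classical
  rw [mem_fixG] at hq hp
  have hlev : ∀ x, (lev e x : ℤ) = (m : ℤ) - 1 - (rowOf e x : ℤ) - (colOf e x : ℤ) := by
    intro x
    have := stair_lev e x
    omega
  have hrow : ∑ x ∈ Finset.univ.filter (fun x => (lev e x : ℤ) < (k : ℤ)), (rowOf e (q x) : ℤ) =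
      ∑ x ∈ Finset.univ.filter (fun x => (lev e x : ℤ) < (k : ℤ)), (rowOf e x : ℤ) := by
    symm
    refine Finset.sum_equiv (q⁻¹ * p) ?_ ?_
    · intro x
      simp only [Finset.mem_filter, Finset.mem_univ, true_and, Nat.cast_lt]
      exact (h x).symm
    · intro x _
      have : q ((q⁻¹ * p) x) = p x := by simp
      rw [this, hp]
  have hQ : ∀ x, (lev e (q x) : ℤ) < (k : ℤ) ↔ (lev e x : ℤ) < (k : ℤ) := by
    apply thr_unique (fun x => (lev e x : ℤ)) (k : ℤ) q
    apply le_of_eq
    have a1 : ∀ x, (lev e (q x) : ℤ) = ((m : ℤ) - 1 - (colOf e x : ℤ)) - (rowOf e (q x) : ℤ) := by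
      intro x
      rw [hlev, hq]
      ring
    have a2 : ∀ x, (lev e x : ℤ) = ((m : ℤ) - 1 - (colOf e x : ℤ)) - (rowOf e x : ℤ) := by
      intro x
      rw [hlev]
      ring
    rw [Finset.sum_congr rfl (fun x _ => a1 x)]
    conv_rhs => rw [Finset.sum_congr rfl (fun x _ => a2 x)]
    simp only [Finset.sum_sub_distrib, hrow]
  have hQ' : ∀ x, lev e (q x) < k ↔ lev e x < k := by
    intro x
    have := hQ x
    simpa only [Nat.cast_lt] using this
  refine ⟨hQ', ?_⟩
  intro x
  have : p x = q ((q⁻¹ * p) x) := by simp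
  rw [this, hQ', h]

/-- [T3] Bottom lemma.  B = cells of t3 outside tau.  Use psi x = tau.colLen (col x) - row x (in ℤ),
B = {psi < 1} (YoungDiagram.mem_iff_lt_colLen).  q keeps columns, r keeps rows and r q B = B, so
sum over B of row (q x) = sum over B of row (r (q x)) = sum over B of row x. -/
theorem bot_tab {nu : YoungDiagram} (tau : YoungDiagram) (t3 : Tableau nu X) (r q : Perm X)
    (hr : r ∈ fixG (rowOf t3)) (hq : q ∈ fixG (colOf t3))
    (h : ∀ x, ((rowOf t3 ((r * q) x), colOf t3 ((r * q) x)) ∉ tau) ↔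
      ((rowOf t3 x, colOf t3 x) ∉ tau)) :
    (∀ x, ((rowOf t3 (q x), colOf t3 (q x)) ∉ tau) ↔ ((rowOf t3 x, colOf t3 x) ∉ tau)) ∧
    (∀ x, ((rowOf t3 (r x), colOf t3 (r x)) ∉ tau) ↔ ((rowOf t3 x, colOf t3 x) ∉ tau)) := by
  rw [mem_fixG] at hr hq
  set ψ : X → ℤ := fun x => (tau.colLen (colOf t3 x) : ℤ) - (rowOf t3 x : ℤ) with hψ
  have key : ∀ x, ((rowOf t3 x, colOf t3 x) ∉ tau) ↔ ψ x < 1 := by
    intro x
    rw [YoungDiagram.mem_iff_lt_colLen]
    simp only [hψ]
    omega
  have h' : ∀ x, ψ ((r * q) x) < 1 ↔ ψ x < 1 := by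
    intro x
    rw [← key, ← key]
    exact h x
  have hrow : ∑ x ∈ Finset.univ.filter (fun x => ψ x < 1), (rowOf t3 (q x) : ℤ)
      = ∑ x ∈ Finset.univ.filter (fun x => ψ x < 1), (rowOf t3 x : ℤ) := by
    refine Finset.sum_equiv (r * q) ?_ ?_
    · intro x
      simp only [Finset.mem_filter, Finset.mem_univ, true_and]
      exact (h' x).symm
    · intro x _
      rw [Perm.mul_apply, hr]
  have hsum : ∑ x ∈ Finset.univ.filter (fun x => ψ x < 1), ψ (q x) ≤
      ∑ x ∈ Finset.univ.filter (fun x => ψ x < 1), ψ x := by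
    apply le_of_eq
    simp only [hψ, hq, Finset.sum_sub_distrib]
    rw [hrow]
  have hqq := thr_unique ψ 1 q hsum
  refine ⟨?_, ?_⟩
  · intro x
    rw [key, key]
    exact hqq x
  · intro x
    rw [key, key]
    have e1 : r x = (r * q) (q⁻¹ x) := by
      rw [Perm.mul_apply, perm_apply_inv]
    rw [e1, h', ← hqq, perm_apply_inv]

end Vale.Agent.P197
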