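import Vale.Agent.P197.Sx.Base

/-! Nonvanishing of Pf on every word in the four letters.  See notes/P197_saxl.md section 3 (b). -/

namespace Vale.Agent.P197

open Equiv

variable {Y : Type*} [Fintype Y] [DecidableEq Y]

/-- product and adjugate of letters (only the entries with indices 0, 1 matter). -/
def mulF (A B : ℕ → ℕ → ℂ) (α β : ℕ) : ℂ := A α 0 * B 0 β + A α 1 * B 1 β

def adjF (A : ℕ → ℕ → ℂ) (α β : ℕ) : ℂ :=
  if α = 0 ∧ β = 0 then A 1 1 else if α = 0 ∧ β = 1 then - A 0 1
  else if α = 1 ∧ β = 0 then - A 1 0 else if α = 1 ∧ β = 1 then A 0 0 else 0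

def idF (α β : ℕ) : ℂ := if α = β then 1 else 0

/-- the odd states O0 = id, O1 = [[1,-4],[0,-1]], O2 = [[2,-3],[1,-2]], O3 = [[2,-5],[1,-2]]. -/
def letOZ : ℕ → ℕ → ℕ → ℤ
  | 0, 0, 0 => 1 | 0, 0, 1 => 0 | 0, 1, 0 => 0 | 0, 1, 1 => 1
  | 1, 0, 0 => 1 | 1, 0, 1 => -4 | 1, 1, 0 => 0 | 1, 1, 1 => -1
  | 2, 0, 0 => 2 | 2, 0, 1 => -3 | 2, 1, 0 => 1 | 2, 1, 1 => -2
  | 3, 0, 0 => 2 | 3, 0, 1 => -5 | 3, 1, 0 => 1 | 3, 1, 1 => -2
  | _, _, _ => 0

noncomputable def letO (i α β : ℕ) : ℂ := (letOZ i α β : ℂ)

/-- A agrees, on indices < 2, with plus or minus one of the letters. -/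
def IsSE (A : ℕ → ℕ → ℂ) : Prop :=
  ∃ (s : ℂ) (i : ℕ), (s = 1 ∨ s = -1) ∧ i < 4 ∧ ∀ α β, α < 2 → β < 2 → A α β = s * letL i α β

def IsSO (A : ℕ → ℕ → ℂ) : Prop :=
  ∃ (s : ℂ) (i : ℕ), (s = 1 ∨ s = -1) ∧ i < 4 ∧ ∀ α β, α < 2 → β < 2 → A α β = s * letO i α β

/-- [W1] advance over a cB-link (n even): (Yn, B) may be replaced by (id, B * adj Yn).
`Pf_linkB` with c = 1 (block from hc.hB, hc.inj; b y = 0, b y' = 1 from hc.hb);
hlink is a polynomial identity checked for al, al' in {0,1}. -/
theorem Pf_advance_even {M : ℕ} {idx cA a cB b : Y → ℕ} (hc : IsChain M idx cA a cB b)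
    (ζ : Y → ℕ → ℕ → ℂ) (y y' : Y) (n : ℕ) (hn : n % 2 = 0) (hy : idx y = n) (hy' : idx y' = n + 1) :
    Pf cA a cB b ζ =
      Pf cA a cB b (Function.update (Function.update ζ y idF) y' (mulF (ζ y') (adjF (ζ y)))) := by
  have hne : y ≠ y' := by
    intro h
    rw [h] at hy
    omega
  have hby : b y = 0 := by rw [hc.hb, hy, hn]
  have hby' : b y' = 1 := by rw [hc.hb, hy']; omega
  have key := Pf_linkB cA a cB b y y' hne
    (by
      intro x
      rw [hc.hB, hy]
      constructor
      · intro h
        have h1 : idx x = n ∨ idx x = n + 1 := by omega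
        rcases h1 with h1 | h1
        · exact Or.inl (hc.inj (by rw [h1, hy]))
        · exact Or.inr (hc.inj (by rw [h1, hy']))
      · rintro (rfl | rfl)
        · rw [hy]
        · rw [hy']; omega)
    (by intro x; rw [hc.ha]; omega)
    (Function.update (Function.update ζ y idF) y' (mulF (ζ y') (adjF (ζ y)))) ζ
    (by
      intro x h1 h2
      rw [Function.update_of_ne h2, Function.update_of_ne h1]) 1
    (by
      intro α α' h1 h2
      rw [hby, hby', Function.update_self, Function.update_of_ne hne, Function.update_self]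
      interval_cases α <;> interval_cases α' <;> simp [idF, mulF, adjF] <;> ring)
  rw [key, one_mul]

/-- [W2] advance over a cA-link (n odd): (Yn, B) may be replaced by (id, adj Yn * B).  `Pf_linkA`, a y = 1, a y' = 0. -/
theorem Pf_advance_odd {M : ℕ} {idx cA a cB b : Y → ℕ} (hc : IsChain M idx cA a cB b)
    (ζ : Y → ℕ → ℕ → ℂ) (y y' : Y) (n : ℕ) (hn : n % 2 = 1) (hy : idx y = n) (hy' : idx y' = n + 1) :
    Pf cA a cB b ζ =
      Pf cA a cB b (Function.update (Function.update ζ y idF) y' (mulF (adjF (ζ y)) (ζ y'))) := by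
  have hne : y ≠ y' := by
    intro h
    rw [h] at hy
    omega
  have hay : a y = 1 := by rw [hc.ha, hy, hn]
  have hay' : a y' = 0 := by rw [hc.ha, hy']; omega
  have key := Pf_linkA cA a cB b y y' hne
    (by
      intro x
      rw [hc.hA, hy]
      constructor
      · intro h
        have h1 : idx x = n ∨ idx x = n + 1 := by omega
        rcases h1 with h1 | h1
        · exact Or.inl (hc.inj (by rw [h1, hy]))
        · exact Or.inr (hc.inj (by rw [h1, hy']))
      · rintro (rfl | rfl)
        · rw [hy]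
        · rw [hy']; omega)
    (by intro x; rw [hc.hb]; omega)
    (Function.update (Function.update ζ y idF) y' (mulF (adjF (ζ y)) (ζ y'))) ζ
    (by
      intro x h1 h2
      rw [Function.update_of_ne h2, Function.update_of_ne h1]) 1
    (by
      intro β β' h1 h2
      rw [hay, hay', Function.update_self, Function.update_of_ne hne, Function.update_self]
      interval_cases β <;> interval_cases β' <;> simp [idF, mulF, adjF] <;> ring)
  rw [key, one_mul]

/-- [W3] finite check (16 cases, 4 entries each; the sign s factors out). -/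
theorem SE_step {A : ℕ → ℕ → ℂ} (hA : IsSE A) {j : ℕ} (hj : j < 4) :
    IsSO (mulF (letL j) (adjF A)) := by
  obtain ⟨s, i, hs, hi, hA⟩ := hA
  have h00 := hA 0 0 (by norm_num) (by norm_num)
  have h01 := hA 0 1 (by norm_num) (by norm_num)
  have h10 := hA 1 0 (by norm_num) (by norm_num)
  have h11 := hA 1 1 (by norm_num) (by norm_num)
  have hs' : -s = 1 ∨ -s = -1 := by
    rcases hs with h | h
    · right; rw [h]
    · left; rw [h]; norm_num
  clear hA
  interval_cases i <;> interval_cases j
  · refine ⟨s, 0, hs, by norm_num, ?_⟩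
    intro α β hα hβ
    interval_cases α <;> interval_cases β <;>
      simp [mulF, adjF, h00, h01, h10, h11, letL, letO, letZ, letOZ] <;> ring
  · refine ⟨s, 1, hs, by norm_num, ?_⟩
    intro α β hα hβ
    interval_cases α <;> interval_cases β <;>
      simp [mulF, adjF, h00, h01, h10, h11, letL, letO, letZ, letOZ] <;> ring
  · refine ⟨s, 2, hs, by norm_num, ?_⟩
    intro α β hα hβ
    interval_cases α <;> interval_cases β <;>
      simp [mulF, adjF, h00, h01, h10, h11, letL, letO, letZ, letOZ] <;> ring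
  · refine ⟨-s, 3, hs', by norm_num, ?_⟩
    intro α β hα hβ
    interval_cases α <;> interval_cases β <;>
      simp [mulF, adjF, h00, h01, h10, h11, letL, letO, letZ, letOZ] <;> ring
  · refine ⟨-s, 1, hs', by norm_num, ?_⟩
    intro α β hα hβ
    interval_cases α <;> interval_cases β <;>
      simp [mulF, adjF, h00, h01, h10, h11, letL, letO, letZ, letOZ] <;> ring
  · refine ⟨-s, 0, hs', by norm_num, ?_⟩
    intro α β hα hβ
    interval_cases α <;> interval_cases β <;>
      simp [mulF, adjF, h00, h01, h10, h11, letL, letO, letZ, letOZ] <;> ring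
  · refine ⟨-s, 3, hs', by norm_num, ?_⟩
    intro α β hα hβ
    interval_cases α <;> interval_cases β <;>
      simp [mulF, adjF, h00, h01, h10, h11, letL, letO, letZ, letOZ] <;> ring
  · refine ⟨s, 2, hs, by norm_num, ?_⟩
    intro α β hα hβ
    interval_cases α <;> interval_cases β <;>
      simp [mulF, adjF, h00, h01, h10, h11, letL, letO, letZ, letOZ] <;> ring
  · refine ⟨-s, 2, hs', by norm_num, ?_⟩
    intro α β hα hβ
    interval_cases α <;> interval_cases β <;>
      simp [mulF, adjF, h00, h01, h10, h11, letL, letO, letZ, letOZ] <;> ring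
  · refine ⟨s, 3, hs, by norm_num, ?_⟩
    intro α β hα hβ
    interval_cases α <;> interval_cases β <;>
      simp [mulF, adjF, h00, h01, h10, h11, letL, letO, letZ, letOZ] <;> ring
  · refine ⟨-s, 0, hs', by norm_num, ?_⟩
    intro α β hα hβ
    interval_cases α <;> interval_cases β <;>
      simp [mulF, adjF, h00, h01, h10, h11, letL, letO, letZ, letOZ] <;> ring
  · refine ⟨-s, 1, hs', by norm_num, ?_⟩
    intro α β hα hβ
    interval_cases α <;> interval_cases β <;>
      simp [mulF, adjF, h00, h01, h10, h11, letL, letO, letZ, letOZ] <;> ring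
  · refine ⟨s, 3, hs, by norm_num, ?_⟩
    intro α β hα hβ
    interval_cases α <;> interval_cases β <;>
      simp [mulF, adjF, h00, h01, h10, h11, letL, letO, letZ, letOZ] <;> ring
  · refine ⟨-s, 2, hs', by norm_num, ?_⟩
    intro α β hα hβ
    interval_cases α <;> interval_cases β <;>
      simp [mulF, adjF, h00, h01, h10, h11, letL, letO, letZ, letOZ] <;> ring
  · refine ⟨s, 1, hs, by norm_num, ?_⟩
    intro α β hα hβ
    interval_cases α <;> interval_cases β <;>
      simp [mulF, adjF, h00, h01, h10, h11, letL, letO, letZ, letOZ] <;> ring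
  · refine ⟨s, 0, hs, by norm_num, ?_⟩
    intro α β hα hβ
    interval_cases α <;> interval_cases β <;>
      simp [mulF, adjF, h00, h01, h10, h11, letL, letO, letZ, letOZ] <;> ring

/-- [W3] finite check. -/
theorem SO_step {A : ℕ → ℕ → ℂ} (hA : IsSO A) {j : ℕ} (hj : j < 4) :
    IsSE (mulF (adjF A) (letL j)) := by
  obtain ⟨s, i, hs, hi, hA⟩ := hA
  have h00 := hA 0 0 (by norm_num) (by norm_num)
  have h01 := hA 0 1 (by norm_num) (by norm_num)
  have h10 := hA 1 0 (by norm_num) (by norm_num)
  have h11 := hA 1 1 (by norm_num) (by norm_num)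
  have hs' : -s = 1 ∨ -s = -1 := by
    rcases hs with h | h
    · right; rw [h]
    · left; rw [h]; norm_num
  clear hA
  interval_cases i <;> interval_cases j
  · refine ⟨s, 0, hs, by norm_num, ?_⟩
    intro α β hα hβ
    interval_cases α <;> interval_cases β <;>
      simp [mulF, adjF, h00, h01, h10, h11, letL, letO, letZ, letOZ] <;> ring
  · refine ⟨s, 1, hs, by norm_num, ?_⟩
    intro α β hα hβ
    interval_cases α <;> interval_cases β <;>
      simp [mulF, adjF, h00, h01, h10, h11, letL, letO, letZ, letOZ] <;> ring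
  · refine ⟨s, 2, hs, by norm_num, ?_⟩
    intro α β hα hβ
    interval_cases α <;> interval_cases β <;>
      simp [mulF, adjF, h00, h01, h10, h11, letL, letO, letZ, letOZ] <;> ring
  · refine ⟨s, 3, hs, by norm_num, ?_⟩
    intro α β hα hβ
    interval_cases α <;> interval_cases β <;>
      simp [mulF, adjF, h00, h01, h10, h11, letL, letO, letZ, letOZ] <;> ring
  · refine ⟨-s, 1, hs', by norm_num, ?_⟩
    intro α β hα hβ
    interval_cases α <;> interval_cases β <;>
      simp [mulF, adjF, h00, h01, h10, h11, letL, letO, letZ, letOZ] <;> ring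
  · refine ⟨-s, 0, hs', by norm_num, ?_⟩
    intro α β hα hβ
    interval_cases α <;> interval_cases β <;>
      simp [mulF, adjF, h00, h01, h10, h11, letL, letO, letZ, letOZ] <;> ring
  · refine ⟨-s, 3, hs', by norm_num, ?_⟩
    intro α β hα hβ
    interval_cases α <;> interval_cases β <;>
      simp [mulF, adjF, h00, h01, h10, h11, letL, letO, letZ, letOZ] <;> ring
  · refine ⟨-s, 2, hs', by norm_num, ?_⟩
    intro α β hα hβ
    interval_cases α <;> interval_cases β <;>
      simp [mulF, adjF, h00, h01, h10, h11, letL, letO, letZ, letOZ] <;> ring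
  · refine ⟨-s, 2, hs', by norm_num, ?_⟩
    intro α β hα hβ
    interval_cases α <;> interval_cases β <;>
      simp [mulF, adjF, h00, h01, h10, h11, letL, letO, letZ, letOZ] <;> ring
  · refine ⟨s, 3, hs, by norm_num, ?_⟩
    intro α β hα hβ
    interval_cases α <;> interval_cases β <;>
      simp [mulF, adjF, h00, h01, h10, h11, letL, letO, letZ, letOZ] <;> ring
  · refine ⟨-s, 0, hs', by norm_num, ?_⟩
    intro α β hα hβ
    interval_cases α <;> interval_cases β <;>
      simp [mulF, adjF, h00, h01, h10, h11, letL, letO, letZ, letOZ] <;> ring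
  · refine ⟨s, 1, hs, by norm_num, ?_⟩
    intro α β hα hβ
    interval_cases α <;> interval_cases β <;>
      simp [mulF, adjF, h00, h01, h10, h11, letL, letO, letZ, letOZ] <;> ring
  · refine ⟨s, 3, hs, by norm_num, ?_⟩
    intro α β hα hβ
    interval_cases α <;> interval_cases β <;>
      simp [mulF, adjF, h00, h01, h10, h11, letL, letO, letZ, letOZ] <;> ring
  · refine ⟨-s, 2, hs', by norm_num, ?_⟩
    intro α β hα hβ
    interval_cases α <;> interval_cases β <;>
      simp [mulF, adjF, h00, h01, h10, h11, letL, letO, letZ, letOZ] <;> ring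
  · refine ⟨s, 1, hs, by norm_num, ?_⟩
    intro α β hα hβ
    interval_cases α <;> interval_cases β <;>
      simp [mulF, adjF, h00, h01, h10, h11, letL, letO, letZ, letOZ] <;> ring
  · refine ⟨-s, 0, hs', by norm_num, ?_⟩
    intro α β hα hβ
    interval_cases α <;> interval_cases β <;>
      simp [mulF, adjF, h00, h01, h10, h11, letL, letO, letZ, letOZ] <;> ring

/-- [W3] corner entries 7, -5, 5, 1. -/
theorem SE_corner {A : ℕ → ℕ → ℂ} (hA : IsSE A) : A 0 0 ≠ 0 := by
  obtain ⟨s, i, hs, hi, hA⟩ := hA
  rw [hA 0 0 (by norm_num) (by norm_num)]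
  have hs0 : s ≠ 0 := by
    rcases hs with h | h <;> rw [h] <;> norm_num
  refine mul_ne_zero hs0 ?_
  interval_cases i <;> simp [letL, letZ]

/-- [W4] induction on d = 2M - n.  d = 0: `Pf_base` and `SE_corner`.  Step: take y at position n, y' at n+1 (hc.surj),
`Pf_advance_even/odd`, and check the three hypotheses for n+1 and the updated zeta (`SE_step`, `SO_step`). -/
theorem Pf_state_ne {M : ℕ} {idx cA a cB b : Y → ℕ} (hc : IsChain M idx cA a cB b) (w : Y → ℕ)
    (d : ℕ) : ∀ n : ℕ, n + d = 2 * M → ∀ ζ : Y → ℕ → ℕ → ℂ,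
      (∀ y, idx y < n → ζ y = idF) →
      (∀ y, idx y = n → (n % 2 = 0 → IsSE (ζ y)) ∧ (n % 2 = 1 → IsSO (ζ y))) →
      (∀ y, n < idx y → ζ y = letL (w y % 4)) → Pf cA a cB b ζ ≠ 0 := by
  induction d with
  | zero =>
    intro n hn ζ h1 h2 _
    have hn' : n = 2 * M := by omega
    subst hn'
    obtain ⟨yl, hyl⟩ := hc.surj (2 * M) (by omega)
    rw [Pf_base hc ζ (fun y hy α β => by rw [h1 y hy]; rfl) yl hyl]
    exact SE_corner ((h2 yl hyl).1 (by omega))
  | succ d ih =>
    intro n hn ζ h1 h2 h3
    obtain ⟨y, hy⟩ := hc.surj n (by omega)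
    obtain ⟨y', hy'⟩ := hc.surj (n + 1) (by omega)
    have hyy' : y ≠ y' := by
      intro h
      rw [h, hy'] at hy
      omega
    have hlow : ∀ (B : ℕ → ℕ → ℂ) (z : Y), idx z < n + 1 →
        Function.update (Function.update ζ y idF) y' B z = idF := by
      intro B z hz
      have hz' : z ≠ y' := by
        intro h
        rw [h, hy'] at hz
        omega
      rw [Function.update_of_ne hz']
      by_cases hzy : z = y
      · rw [hzy, Function.update_self]
      · rw [Function.update_of_ne hzy]
        apply h1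
        have : idx z ≠ n := fun h => hzy (hc.inj (h.trans hy.symm))
        omega
    have hhigh : ∀ (B : ℕ → ℕ → ℂ) (z : Y), n + 1 < idx z →
        Function.update (Function.update ζ y idF) y' B z = letL (w z % 4) := by
      intro B z hz
      have hz' : z ≠ y' := by
        intro h
        rw [h, hy'] at hz
        omega
      have hzy : z ≠ y := by
        intro h
        rw [h, hy] at hz
        omega
      rw [Function.update_of_ne hz', Function.update_of_ne hzy]
      exact h3 z (by omega)
    have hy'L : ζ y' = letL (w y' % 4) := h3 y' (by omega)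
    have hj : w y' % 4 < 4 := Nat.mod_lt _ (by norm_num)
    rcases Nat.mod_two_eq_zero_or_one n with hpar | hpar
    · rw [Pf_advance_even hc ζ y y' n hpar hy hy']
      refine ih (n + 1) (by omega) _ (hlow _) ?_ (hhigh _)
      intro z hz
      have hzy' : z = y' := hc.inj (hz.trans hy'.symm)
      refine ⟨fun h => by omega, fun _ => ?_⟩
      rw [hzy', Function.update_self, hy'L]
      exact SE_step ((h2 y hy).1 hpar) hj
    · rw [Pf_advance_odd hc ζ y y' n hpar hy hy']
      refine ih (n + 1) (by omega) _ (hlow _) ?_ (hhigh _)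
      intro z hz
      have hzy' : z = y' := hc.inj (hz.trans hy'.symm)
      refine ⟨fun _ => ?_, fun h => by omega⟩
      rw [hzy', Function.update_self, hy'L]
      exact SO_step ((h2 y hy).2 hpar) hj

/-- `Pf_state_ne` with n = 0. -/
theorem Pf_word_ne {M : ℕ} {idx cA a cB b : Y → ℕ} (hc : IsChain M idx cA a cB b) (w : Y → ℕ) :
    Pf cA a cB b (fun y => letL (w y % 4)) ≠ 0 := by
  refine Pf_state_ne hc w (2 * M) 0 (by omega) _ (fun y hy => absurd hy (by omega)) ?_
    (fun y _ => rfl)
  intro y _
  refine ⟨fun _ => ⟨1, w y % 4, Or.inl rfl, Nat.mod_lt _ (by norm_num), ?_⟩, fun h => by omega⟩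
  intro α β _ _
  rw [one_mul]

end Vale.Agent.P197
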